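import Vale.Agent.P328.Ana.Casimir

/-!
# P328, [A]: the abstract theorem
-/

namespace Vale.Agent.P328.Cas

open Finset Matrix Vale.Agent.P328.Ana.Cas

namespace AbsMain

section

variable {Ω : Type*} [Fintype Ω] [DecidableEq Ω]

theorem exists_eig (C : Matrix Ω Ω ℝ) (hC : C.IsSymm) :
    ∃ (V : Matrix Ω Ω ℝ) (c : Ω → ℝ), V * Vᵀ = 1 ∧ Vᵀ * V = 1 ∧ C = V * diagonal c * Vᵀ := by
  have hH : C.IsHermitian := by
    rw [Matrix.IsHermitian, Matrix.conjTranspose_eq_transpose_of_trivial]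
    exact hC
  refine ⟨(hH.eigenvectorUnitary : Matrix Ω Ω ℝ), hH.eigenvalues, ?_, ?_, ?_⟩
  · have := Unitary.coe_mul_star_self hH.eigenvectorUnitary
    rw [Unitary.coe_star, Matrix.star_eq_conjTranspose,
      Matrix.conjTranspose_eq_transpose_of_trivial] at this
    exact this
  · have := Unitary.coe_star_mul_self hH.eigenvectorUnitary
    rw [Matrix.star_eq_conjTranspose, Matrix.conjTranspose_eq_transpose_of_trivial] at this
    exact this
  · have := hH.spectral_theorem
    rw [Unitary.conjStarAlgAut_apply] at this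
    rw [Matrix.star_eq_conjTranspose, Matrix.conjTranspose_eq_transpose_of_trivial] at this
    exact this

theorem ip_diagonal (f : Ω → ℝ) (W : Matrix Ω Ω ℝ) :
    ip (diagonal f) W = ∑ x, f x * W x x := by
  unfold ip
  refine sum_congr rfl fun x _ => ?_
  rw [Finset.sum_eq_single x (fun y _ hy => ?_) (fun h => absurd (mem_univ _) h)]
  · rw [diagonal_apply_eq]
  · rw [diagonal_apply_ne _ hy.symm, zero_mul]

theorem trace_absAd {V : Matrix Ω Ω ℝ} {c : Ω → ℝ} (hV : V * Vᵀ = 1) (hV' : Vᵀ * V = 1)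
    (Z : Matrix Ω Ω ℝ) : ∑ x, absAd V c Z x x = 0 := by
  have h := trace_comm_absAd (c := c) hV hV' (P := 1) (by rw [Matrix.one_mul, Matrix.mul_one]) Z
  rw [← diagonal_one, ip_diagonal] at h
  simpa using h

/-- The map `Φ ↦ diag (|ad C| Φ)`, made invertible on the constants. -/
noncomputable def dmap (V : Matrix Ω Ω ℝ) (c : Ω → ℝ) : (Ω → ℝ) →ₗ[ℝ] (Ω → ℝ) where
  toFun Φ := fun x => absAd V c (diagonal Φ) x x + ∑ y, Φ y
  map_add' Φ Ψ := by
    funext x
    have : (diagonal (Φ + Ψ) : Matrix Ω Ω ℝ) = diagonal Φ + diagonal Ψ := by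
      rw [diagonal_add]; rfl
    rw [this, absAd_add, Pi.add_apply, Matrix.add_apply]
    simp only [Pi.add_apply, sum_add_distrib]
    ring
  map_smul' a Φ := by
    funext x
    have : (diagonal (a • Φ) : Matrix Ω Ω ℝ) = a • diagonal Φ := by
      rw [diagonal_smul]
    rw [this, absAd_smul, Matrix.smul_apply]
    simp only [Pi.smul_apply, smul_eq_mul, RingHom.id_apply, ← mul_sum]
    ring

theorem dmap_inj {V C : Matrix Ω Ω ℝ} {c : Ω → ℝ} (hV : V * Vᵀ = 1) (hV' : Vᵀ * V = 1)
    (hC : C = V * diagonal c * Vᵀ)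
    (hconn : ∀ f : Ω → ℝ, (∀ x y, C x y ≠ 0 → f x = f y) → ∀ x y, f x = f y) :
    Function.Injective (dmap V c) := by
  rw [← LinearMap.ker_eq_bot, LinearMap.ker_eq_bot']
  intro Φ hΦ
  have h0 : ∀ x, absAd V c (diagonal Φ) x x + ∑ y, Φ y = 0 := fun x => congrFun hΦ x
  have h1 : ip (diagonal Φ) (absAd V c (diagonal Φ)) + (∑ y, Φ y) ^ 2 = 0 := by
    rw [ip_diagonal, pow_two, sum_mul, ← sum_add_distrib]
    refine sum_eq_zero fun x _ => ?_
    rw [← mul_add, h0, mul_zero]
  have h2 := ip_absAd (c := c) hV hV' (diagonal Φ)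
  have h3 : ∀ i j, 0 ≤ |c i - c j| * (Vᵀ * diagonal Φ * V) i j ^ 2 := fun i j => by positivity
  have h4 : 0 ≤ ip (diagonal Φ) (absAd V c (diagonal Φ)) := by
    rw [h2]; exact sum_nonneg fun i _ => sum_nonneg fun j _ => h3 i j
  have h5 : ip (diagonal Φ) (absAd V c (diagonal Φ)) = 0 := by nlinarith [sq_nonneg (∑ y, Φ y)]
  have h6 : ∑ y, Φ y = 0 := by
    rw [h5, zero_add] at h1
    exact pow_eq_zero_iff (two_ne_zero) |>.1 h1
  rw [h2] at h5
  have h7 : ∀ i j, (c i - c j) * (Vᵀ * diagonal Φ * V) i j = 0 := by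
    intro i j
    have a1 := (sum_eq_zero_iff_of_nonneg (fun i _ => sum_nonneg fun j _ => h3 i j)).1 h5 i
      (mem_univ i)
    have a2 := (sum_eq_zero_iff_of_nonneg (fun j _ => h3 i j)).1 a1 j (mem_univ j)
    rcases mul_eq_zero.1 a2 with h | h
    · rw [abs_eq_zero.1 h, zero_mul]
    · rw [pow_eq_zero_iff (two_ne_zero) |>.1 h, mul_zero]
  have h8 : C * diagonal Φ - diagonal Φ * C = 0 := by
    rw [← conj_conj hV (C * diagonal Φ - diagonal Φ * C), hC, conj_ad hV']
    have : (Matrix.of fun i j => (c i - c j) * (Vᵀ * diagonal Φ * V) i j)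
        = (0 : Matrix Ω Ω ℝ) := by
      ext i j; rw [of_apply, h7]; rfl
    rw [this, Matrix.mul_zero, Matrix.zero_mul]
  have h9 : ∀ x y, C x y ≠ 0 → Φ x = Φ y := by
    intro x y hxy
    have := congrFun (congrFun h8 x) y
    rw [Matrix.sub_apply, Matrix.mul_diagonal, Matrix.diagonal_mul, Matrix.zero_apply] at this
    have h' : C x y * (Φ y - Φ x) = 0 := by linarith
    rcases mul_eq_zero.1 h' with h | h
    · exact absurd h hxy
    · linarith
  have h10 := hconn Φ h9
  funext x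
  have h11 : ∑ y, Φ y = (Fintype.card Ω : ℝ) * Φ x := by
    rw [sum_congr rfl (fun y _ => h10 y x), sum_const, nsmul_eq_mul]; rfl
  rw [h6] at h11
  have h12 : (Fintype.card Ω : ℝ) ≠ 0 := by
    have : Nonempty Ω := ⟨x⟩
    exact_mod_cast Fintype.card_ne_zero
  rcases mul_eq_zero.1 h11.symm with h | h
  · exact absurd h h12
  · exact h

theorem surj {V C : Matrix Ω Ω ℝ} {c : Ω → ℝ} (hV : V * Vᵀ = 1) (hV' : Vᵀ * V = 1)
    (hC : C = V * diagonal c * Vᵀ)
    (hconn : ∀ f : Ω → ℝ, (∀ x y, C x y ≠ 0 → f x = f y) → ∀ x y, f x = f y)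
    (F : Ω → ℝ) (hF : ∑ x, F x = 0) :
    ∃ Φ : Ω → ℝ, ∀ x, absAd V c (diagonal Φ) x x = F x := by
  obtain ⟨Φ, hΦ⟩ := LinearMap.injective_iff_surjective.1 (dmap_inj hV hV' hC hconn) F
  refine ⟨Φ, fun x => ?_⟩
  have h0 : ∀ x, absAd V c (diagonal Φ) x x + ∑ y, Φ y = F x := fun x => congrFun hΦ x
  have h1 : ∑ x, F x = (Fintype.card Ω : ℝ) * ∑ y, Φ y := by
    rw [← sum_congr rfl (fun x _ => h0 x), sum_add_distrib, trace_absAd hV hV', sum_const,
      nsmul_eq_mul, zero_add]; rfl
  rw [hF] at h1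
  have h12 : (Fintype.card Ω : ℝ) ≠ 0 := by
    have : Nonempty Ω := ⟨x⟩
    exact_mod_cast Fintype.card_ne_zero
  have h2 : ∑ y, Φ y = 0 := by
    rcases mul_eq_zero.1 h1.symm with h | h
    · exact absurd h h12
    · exact h
  rw [← h0 x, h2, add_zero]

variable {β : Type*} [DecidableEq β]

/-- The part of a matrix that preserves the key. -/
def blk (key : Ω → β) (Z : Matrix Ω Ω ℝ) : Matrix Ω Ω ℝ :=
  Matrix.of fun x y => if key x = key y then Z x y else 0

omit [Fintype Ω] [DecidableEq Ω] in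
theorem blk_apply (key : Ω → β) (Z : Matrix Ω Ω ℝ) (x y : Ω) :
    blk key Z x y = if key x = key y then Z x y else 0 := rfl

theorem ip_blk (key : Ω → β) (Z : Matrix Ω Ω ℝ) :
    ip (blk key Z) (blk key Z) = ∑ x, Z x x ^ 2 + ∑ p ∈ prk key, Z p.1 p.2 ^ 2 := by
  have e1 : ip (blk key Z) (blk key Z)
      = ∑ p : Ω × Ω, if key p.1 = key p.2 then Z p.1 p.2 ^ 2 else 0 := by
    unfold ip
    rw [Fintype.sum_prod_type]
    refine sum_congr rfl fun x _ => sum_congr rfl fun y _ => ?_
    simp only [blk_apply]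
    split_ifs
    · ring
    · ring
  have e2 : ∑ p : Ω × Ω, (if key p.1 = key p.2 then Z p.1 p.2 ^ 2 else 0)
      = ∑ p : Ω × Ω, ((if p.1 = p.2 then Z p.1 p.2 ^ 2 else 0)
        + if key p.1 = key p.2 ∧ p.1 ≠ p.2 then Z p.1 p.2 ^ 2 else 0) := by
    refine sum_congr rfl fun p _ => ?_
    by_cases h : p.1 = p.2
    · rw [if_pos (congrArg key h), if_pos h, if_neg (fun h' => h'.2 h), add_zero]
    · rw [if_neg h, zero_add]
      by_cases h' : key p.1 = key p.2
      · rw [if_pos h', if_pos ⟨h', h⟩]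
      · rw [if_neg h', if_neg (fun h'' => h' h''.1)]
  rw [e1, e2, sum_add_distrib]
  congr 1
  · rw [Fintype.sum_prod_type]
    refine sum_congr rfl fun x _ => ?_
    rw [Finset.sum_eq_single x (fun y _ hy => if_neg hy.symm) (fun h => absurd (mem_univ _) h),
      if_pos rfl]
  · rw [prk, sum_filter]

omit [DecidableEq Ω] in
theorem blk_conj {key : Ω → β} {O : Matrix Ω Ω ℝ} (hO2 : ∀ x y, key x ≠ key y → O x y = 0)
    (Z : Matrix Ω Ω ℝ) : Oᵀ * blk key Z * O = blk key (Oᵀ * Z * O) := by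
  ext y z
  rw [blk_apply, Matrix.mul_apply]
  by_cases h : key y = key z
  · rw [if_pos h, Matrix.mul_apply]
    refine sum_congr rfl fun w _ => ?_
    rw [Matrix.mul_apply, Matrix.mul_apply, sum_mul, sum_mul]
    refine sum_congr rfl fun x _ => ?_
    rw [transpose_apply, blk_apply]
    by_cases h1 : key x = key y
    · by_cases h2 : key w = key z
      · rw [if_pos (h1.trans (h.trans h2.symm))]
      · rw [hO2 w z h2]; ring
    · rw [hO2 x y h1]; ring
  · rw [if_neg h]
    refine sum_eq_zero fun w _ => ?_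
    rw [Matrix.mul_apply, sum_mul]
    refine sum_eq_zero fun x _ => ?_
    rw [transpose_apply, blk_apply]
    by_cases h1 : key x = key y
    · by_cases h2 : key w = key z
      · rw [if_neg (fun h' => h (h1.symm.trans (h'.trans h2)))]; ring
      · rw [hO2 w z h2]; ring
    · rw [hO2 x y h1]; ring

/-- Hop counting for one pair. -/
theorem hop {key : Ω → β} {O : Matrix Ω Ω ℝ} (hO : O * Oᵀ = 1)
    (hO2 : ∀ x y, key x ≠ key y → O x y = 0) (Z : Matrix Ω Ω ℝ) :
    ∑ z, (Oᵀ * Z * O) z z ^ 2 + ∑ p ∈ prk key, (Oᵀ * Z * O) p.1 p.2 ^ 2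
      = ∑ x, Z x x ^ 2 + ∑ p ∈ prk key, Z p.1 p.2 ^ 2 := by
  rw [← ip_blk, ← ip_blk, ← blk_conj hO2, ip_conj _ _ _ hO]

end

end AbsMain

open AbsMain

theorem abs_main {Ω ι β : Type*} [Fintype Ω] [DecidableEq Ω] [Fintype ι] [DecidableEq β]
    (C : Matrix Ω Ω ℝ) (hC : C.IsSymm) (key : ι → Ω → β) (ht : ι → Ω → ℕ)
    (O : ι → Matrix Ω Ω ℝ) (lam : ι → ℕ → ℝ) (gam : ι → β → ℝ)
    (hinj : ∀ e x y, key e x = key e y → ht e x = ht e y → x = y)
    (hO1 : ∀ e, (O e)ᵀ * O e = 1)
    (hO2 : ∀ e x y, key e x ≠ key e y → O e x y = 0)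
    (hC1 : ∀ e y z, ht e y ≠ ht e z → ((O e)ᵀ * C * O e) y z = 0)
    (hC2 : ∀ e y, ((O e)ᵀ * C * O e) y y = lam e (ht e y) + gam e (key e y))
    (hone : ∀ x y, x ≠ y → ∀ e e', key e x = key e y → key e' x = key e' y → e = e')
    (hhop : ∀ x y, x ≠ y → C x y ≠ 0 → ∃ e, key e x = key e y)
    (hconn : ∀ f : Ω → ℝ, (∀ x y, C x y ≠ 0 → f x = f y) → ∀ x y, f x = f y)
    (F : Ω → ℝ) (hF : ∑ x, F x = 0) :
    ∃ y : ι → Ω → ℝ,
      (∀ e a, ∑ z with key e z = a, y e z = ∑ x with key e x = a, F x) ∧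
      (∀ e k, ∑ z with ht e z = k, y e z = 0) ∧
      ∑ e, ∑ z, y e z ^ 2 ≤ ((Fintype.card ι : ℝ) - 1) * ∑ x, F x ^ 2 := by
  classical
  obtain ⟨V, c, hV, hV', hCV⟩ := exists_eig C hC
  obtain ⟨Φ, hΦ⟩ := surj hV hV' hCV hconn F hF
  set X := absAd V c (diagonal Φ) with hX
  have hOO : ∀ e, O e * (O e)ᵀ = 1 := fun e => mul_eq_one_comm.1 (hO1 e)
  refine ⟨fun e z => ((O e)ᵀ * X * O e) z z, ?_, ?_, ?_⟩
  · -- (i)
    intro e a
    have h1 : ∀ z, ((O e)ᵀ * X * O e) z z = ∑ w, ∑ x, O e x z * X x w * O e w z := by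
      intro z
      rw [Matrix.mul_apply]
      refine sum_congr rfl fun w _ => ?_
      rw [Matrix.mul_apply, sum_mul]
      exact sum_congr rfl fun x _ => by rw [transpose_apply]
    simp only [h1]
    rw [sum_comm]
    simp_rw [sum_comm (s := univ.filter fun z => key e z = a)]
    have h2 : ∀ w x : Ω, ∑ z with key e z = a, O e x z * X x w * O e w z
        = if x = w ∧ key e w = a then X x w else 0 := by
      intro w x
      by_cases ha : key e w = a
      · have h3 : ∑ z with key e z = a, O e x z * X x w * O e w z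
            = X x w * (O e * (O e)ᵀ) x w := by
          rw [Matrix.mul_apply, mul_sum]
          refine Finset.sum_subset (filter_subset _ _) (fun z _ hz => ?_) |>.trans ?_
          · have : key e w ≠ key e z := by
              intro h; apply hz; rw [mem_filter]; exact ⟨mem_univ _, h.symm.trans ha⟩
            rw [hO2 e w z this]; ring
          · exact sum_congr rfl fun z _ => by rw [transpose_apply]; ring
        rw [h3, hOO, Matrix.one_apply]
        by_cases hxw : x = w
        · rw [if_pos hxw, if_pos ⟨hxw, ha⟩, mul_one]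
        · rw [if_neg hxw, if_neg (fun h => hxw h.1), mul_zero]
      · rw [if_neg (fun h => ha h.2)]
        refine sum_eq_zero fun z hz => ?_
        have : key e w ≠ key e z := by
          intro h; apply ha; rw [h]; exact (mem_filter.1 hz).2
        rw [hO2 e w z this]; ring
    simp only [h2]
    rw [sum_filter]
    refine sum_congr rfl fun w _ => ?_
    rw [Finset.sum_eq_single w (fun x _ hx => if_neg fun h => hx h.1)
      (fun h => absurd (mem_univ _) h)]
    by_cases ha : key e w = a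
    · rw [if_pos ⟨rfl, ha⟩, if_pos ha, hΦ]
    · rw [if_neg (fun h => ha h.2), if_neg ha]
  · -- (ii)
    intro e k
    set W := (O e)ᵀ * V with hW
    have hW1 : W * Wᵀ = 1 := by
      rw [hW, transpose_mul, transpose_transpose]
      calc (O e)ᵀ * V * (Vᵀ * O e) = (O e)ᵀ * (V * Vᵀ) * O e := by
            simp only [Matrix.mul_assoc]
        _ = 1 := by rw [hV, Matrix.mul_one, hO1]
    have hW2 : Wᵀ * W = 1 := mul_eq_one_comm.1 hW1
    have hCe : (O e)ᵀ * C * O e = W * diagonal c * Wᵀ := by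
      rw [hCV, hW, transpose_mul, transpose_transpose]
      simp only [Matrix.mul_assoc]
    have h1 := trace_comm_absAd (c := c) hW1 hW2
      (P := diagonal fun z => if ht e z = k then 1 else 0) (by
        rw [← hCe]
        ext y z
        rw [Matrix.diagonal_mul, Matrix.mul_diagonal]
        by_cases h : ht e y = ht e z
        · rw [h, mul_comm]
        · rw [hC1 e y z h]; ring) ((O e)ᵀ * diagonal Φ * O e)
    rw [← absAd_conj (O e) (hOO e), ip_diagonal] at h1
    rw [sum_filter]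
    refine Eq.trans (sum_congr rfl fun z _ => ?_) h1
    by_cases h : ht e z = k
    · rw [if_pos h, if_pos h, one_mul]
    · rw [if_neg h, if_neg h, zero_mul]
  · -- (iii)
    set Y := C * diagonal Φ - diagonal Φ * C with hY
    have hYa : ∀ x y, Y x y = C x y * (Φ y - Φ x) := by
      intro x y
      rw [hY, Matrix.sub_apply, Matrix.mul_diagonal, Matrix.diagonal_mul]; ring
    have hYT : Yᵀ = -Y := by
      ext x y
      rw [transpose_apply, Matrix.neg_apply, hYa, hYa]
      have : C y x = C x y := by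
        have := congrFun (congrFun hC x) y
        rwa [transpose_apply] at this
      rw [this]; ring
    have hYe : ∀ e z, ((O e)ᵀ * Y * O e) z z = 0 := by
      intro e z
      have h1 : ((O e)ᵀ * Y * O e)ᵀ = -((O e)ᵀ * Y * O e) := by
        rw [transpose_mul, transpose_mul, transpose_transpose, hYT]
        rw [Matrix.neg_mul, Matrix.mul_neg, Matrix.mul_assoc]
      have h2 := congrFun (congrFun h1 z) z
      rw [transpose_apply, Matrix.neg_apply] at h2
      linarith
    have hY0 : ∀ x, Y x x = 0 := by intro x; rw [hYa]; ring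
    -- one pair
    have hpair : ∀ e, ∑ z, ((O e)ᵀ * X * O e) z z ^ 2 ≤ ∑ x, F x ^ 2
        + ∑ p ∈ prk (key e), X p.1 p.2 ^ 2 - ∑ p ∈ prk (key e), Y p.1 p.2 ^ 2 := by
      intro e
      set W := (O e)ᵀ * V with hW
      have hW1 : W * Wᵀ = 1 := by
        rw [hW, transpose_mul, transpose_transpose]
        calc (O e)ᵀ * V * (Vᵀ * O e) = (O e)ᵀ * (V * Vᵀ) * O e := by
              simp only [Matrix.mul_assoc]
          _ = 1 := by rw [hV, Matrix.mul_one, hO1]
      have hW2 : Wᵀ * W = 1 := mul_eq_one_comm.1 hW1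
      have hCe : (O e)ᵀ * C * O e = W * diagonal c * Wᵀ := by
        rw [hCV, hW, transpose_mul, transpose_transpose]
        simp only [Matrix.mul_assoc]
      have hΦe : ∀ y z, key e y ≠ key e z → ((O e)ᵀ * diagonal Φ * O e) y z = 0 := by
        intro y z h
        rw [Matrix.mul_apply]
        refine sum_eq_zero fun w _ => ?_
        rw [Matrix.mul_diagonal, transpose_apply]
        by_cases h1 : key e w = key e y
        · rw [hO2 e w z (fun h' => h (h1.symm.trans h'))]; ring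
        · rw [hO2 e w y h1]; ring
      have hcore := core hW1 hW2 hCe (hinj e) (hC1 e) (hC2 e) hΦe
      have e1 : (O e)ᵀ * C * O e * ((O e)ᵀ * diagonal Φ * O e)
          - (O e)ᵀ * diagonal Φ * O e * ((O e)ᵀ * C * O e) = (O e)ᵀ * Y * O e := by
        rw [hY, Matrix.mul_sub, Matrix.sub_mul]
        congr 1
        · calc (O e)ᵀ * C * O e * ((O e)ᵀ * diagonal Φ * O e)
              = (O e)ᵀ * C * (O e * (O e)ᵀ) * diagonal Φ * O e := by
                simp only [Matrix.mul_assoc]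
            _ = _ := by rw [hOO, Matrix.mul_one]; simp only [Matrix.mul_assoc]
        · calc (O e)ᵀ * diagonal Φ * O e * ((O e)ᵀ * C * O e)
              = (O e)ᵀ * diagonal Φ * (O e * (O e)ᵀ) * C * O e := by
                simp only [Matrix.mul_assoc]
            _ = _ := by rw [hOO, Matrix.mul_one]; simp only [Matrix.mul_assoc]
      rw [e1, ← absAd_conj (O e) (hOO e), ← hX] at hcore
      have hx := hop (hOO e) (hO2 e) X
      have hy := hop (hOO e) (hO2 e) Y
      have e2 : ∑ z, ((O e)ᵀ * Y * O e) z z ^ 2 = 0 :=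
        sum_eq_zero fun z _ => by rw [hYe]; ring
      have e3 : ∑ x, Y x x ^ 2 = 0 := sum_eq_zero fun x _ => by rw [hY0]; ring
      have e4 : ∑ x, X x x ^ 2 = ∑ x, F x ^ 2 := sum_congr rfl fun x _ => by rw [hΦ]
      rw [e2, e3, zero_add, zero_add] at hy
      rw [e4] at hx
      linarith
    -- sum over the pairs
    set od : Finset (Ω × Ω) := univ.filter fun p => p.1 ≠ p.2 with hod
    have swap : ∀ f : Ω × Ω → ℝ, ∑ e, ∑ p ∈ prk (key e), f p
        = ∑ p ∈ od, ∑ e, if key e p.1 = key e p.2 then f p else 0 := by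
      intro f
      rw [sum_comm]
      refine sum_congr rfl fun e _ => ?_
      rw [← sum_filter]
      congr 1
      ext p
      rw [mem_prk, mem_filter, hod, mem_filter]
      constructor
      · rintro ⟨h1, h2⟩; exact ⟨⟨mem_univ _, h2⟩, h1⟩
      · rintro ⟨⟨-, h2⟩, h1⟩; exact ⟨h1, h2⟩
    have hXle : ∑ e, ∑ p ∈ prk (key e), X p.1 p.2 ^ 2 ≤ ∑ p ∈ od, X p.1 p.2 ^ 2 := by
      rw [swap]
      refine sum_le_sum fun p hp => ?_
      have hne : p.1 ≠ p.2 := (mem_filter.1 hp).2
      by_cases h : ∃ e, key e p.1 = key e p.2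
      · obtain ⟨e0, he0⟩ := h
        rw [Finset.sum_eq_single e0 (fun e _ he => ?_) (fun h => absurd (mem_univ _) h),
          if_pos he0]
        exact if_neg fun h' => he (hone _ _ hne e e0 h' he0)
      · rw [sum_eq_zero fun e _ => if_neg fun h' => h ⟨e, h'⟩]
        exact sq_nonneg _
    have hYge : ∑ p ∈ od, Y p.1 p.2 ^ 2 ≤ ∑ e, ∑ p ∈ prk (key e), Y p.1 p.2 ^ 2 := by
      rw [swap]
      refine sum_le_sum fun p hp => ?_
      have hne : p.1 ≠ p.2 := (mem_filter.1 hp).2
      have hnn : ∀ e ∈ (univ : Finset ι),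
          (0 : ℝ) ≤ if key e p.1 = key e p.2 then Y p.1 p.2 ^ 2 else 0 := by
        intro e _
        split_ifs
        · exact sq_nonneg _
        · exact le_rfl
      by_cases h : C p.1 p.2 = 0
      · have hz : Y p.1 p.2 = 0 := by rw [hYa, h, zero_mul]
        refine le_trans (le_of_eq ?_) (sum_nonneg hnn)
        rw [hz]; ring
      · obtain ⟨e0, he0⟩ := hhop _ _ hne h
        refine le_trans (le_of_eq ?_) (single_le_sum hnn (mem_univ e0))
        rw [if_pos he0]
    have split : ∀ Z : Matrix Ω Ω ℝ, ip Z Z = ∑ x, Z x x ^ 2 + ∑ p ∈ od, Z p.1 p.2 ^ 2 := by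
      intro Z
      have h := ip_blk (fun _ : Ω => ()) Z
      have h1 : blk (fun _ : Ω => ()) Z = Z := by
        ext x y; rw [blk_apply, if_pos rfl]
      rw [h1] at h
      rw [h, hod, prk]
      simp
    have hXX := norm_absAd (c := c) hV hV' (diagonal Φ)
    rw [← hCV, ← hX, ← hY, split, split] at hXX
    have e3 : ∑ x, Y x x ^ 2 = 0 := sum_eq_zero fun x _ => by rw [hY0]; ring
    have e4 : ∑ x, X x x ^ 2 = ∑ x, F x ^ 2 := sum_congr rfl fun x _ => by rw [hΦ]
    rw [e3, e4] at hXX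
    have hsum := sum_le_sum fun e (_ : e ∈ (univ : Finset ι)) => hpair e
    rw [sum_sub_distrib, sum_add_distrib, sum_const, nsmul_eq_mul] at hsum
    have hcard : ((univ : Finset ι).card : ℝ) = (Fintype.card ι : ℝ) := rfl
    rw [hcard] at hsum
    linarith

end Vale.Agent.P328.Cas
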