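import Mathlib

/-!
# P328, [CAS], [A3]: from commuting symmetric matrices to the matrices `O`
-/

namespace Vale.Agent.P328.Cas

open Finset Matrix

theorem basis_main {Ω β : Type*} [Fintype Ω] [DecidableEq Ω] [DecidableEq β]
    (C D : Matrix Ω Ω ℝ) (hD : D.IsSymm) (hCD : C * D = D * C)
    (key : Ω → β) (ht : Ω → ℕ) (lam : ℕ → ℝ) (gam : β → ℝ)
    (hinj : ∀ x y, key x = key y → ht x = ht y → x = y)
    (hlam : ∀ x y : Ω, lam (ht x) = lam (ht y) → ht x = ht y)
    (hkey : ∀ x y, key x ≠ key y → D x y = 0)
    (hCd : ∀ x y, key x = key y → C x y = D x y + if x = y then gam (key x) else 0)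
    (hev : ∀ z, ∃ v : Ω → ℝ, (∃ x, v x ≠ 0) ∧ (∀ x, key x ≠ key z → v x = 0) ∧
      ∀ x, ∑ y, D x y * v y = lam (ht z) * v x) :
    ∃ O : Matrix Ω Ω ℝ, Oᵀ * O = 1 ∧ (∀ x y, key x ≠ key y → O x y = 0) ∧
      (∀ y z, ht y ≠ ht z → (Oᵀ * C * O) y z = 0) ∧
      (∀ y, (Oᵀ * C * O) y y = lam (ht y) + gam (key y)) := by
  choose v hv0 hvk hvD using hev
  have hpos : ∀ z, 0 < ∑ x, v z x ^ 2 := by
    intro z
    obtain ⟨x, hx⟩ := hv0 z
    exact sum_pos' (fun i _ => sq_nonneg _) ⟨x, mem_univ x, by positivity⟩
  set u : Ω → Ω → ℝ := fun z x => v z x / √(∑ x, v z x ^ 2) with hu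
  have hu1 : ∀ z, ∑ x, u z x * u z x = 1 := by
    intro z
    have h1 : ∀ x, u z x * u z x = v z x ^ 2 / (∑ x, v z x ^ 2) := by
      intro x
      rw [hu]
      simp only
      rw [div_mul_div_comm, Real.mul_self_sqrt (hpos z).le, sq]
    simp only [h1]
    rw [← sum_div, div_self (hpos z).ne']
  have huk : ∀ z x, key x ≠ key z → u z x = 0 := by
    intro z x h
    rw [hu]
    simp only
    rw [hvk z x h, zero_div]
  have huD : ∀ z x, ∑ y, D x y * u z y = lam (ht z) * u z x := by
    intro z x
    rw [hu]
    simp only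
    rw [← mul_div_assoc, ← hvD z x, sum_div]
    refine sum_congr rfl fun y _ => by ring
  have horth : ∀ y z, y ≠ z → ∑ x, u y x * u z x = 0 := by
    intro y z hyz
    by_cases hk : key y = key z
    · have hht : ht y ≠ ht z := fun h => hyz (hinj y z hk h)
      have hl : lam (ht y) ≠ lam (ht z) := fun h => hht (hlam y z h)
      have h1 : ∑ x, (∑ w, D x w * u y w) * u z x = ∑ x, u y x * (∑ w, D x w * u z w) := by
        simp only [sum_mul, mul_sum]
        rw [sum_comm]
        refine sum_congr rfl fun x _ => sum_congr rfl fun w _ => ?_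
        rw [hD.apply x w]; ring
      simp only [huD] at h1
      have h2 : lam (ht y) * ∑ x, u y x * u z x = lam (ht z) * ∑ x, u y x * u z x := by
        rw [mul_sum, mul_sum]
        calc ∑ x, lam (ht y) * (u y x * u z x) = ∑ x, lam (ht y) * u y x * u z x :=
              sum_congr rfl fun x _ => by ring
          _ = ∑ x, u y x * (lam (ht z) * u z x) := h1
          _ = _ := sum_congr rfl fun x _ => by ring
      have h3 : (lam (ht y) - lam (ht z)) * ∑ x, u y x * u z x = 0 := by linarith
      rcases mul_eq_zero.1 h3 with h4 | h4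
      · exact absurd (sub_eq_zero.1 h4) hl
      · exact h4
    · refine sum_eq_zero fun x _ => ?_
      by_cases h1 : key x = key y
      · rw [huk z x (fun h => hk (h1.symm.trans h)), mul_zero]
      · rw [huk y x h1, zero_mul]
  set O : Matrix Ω Ω ℝ := Matrix.of fun x z => u z x with hO
  have hOO : Oᵀ * O = 1 := by
    ext y z
    rw [Matrix.mul_apply]
    simp only [Matrix.transpose_apply, hO, Matrix.of_apply]
    by_cases h : y = z
    · subst h
      rw [Matrix.one_apply_eq]
      exact hu1 y
    · rw [Matrix.one_apply_ne h]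
      exact horth y z h
  have hOO' : O * Oᵀ = 1 := mul_eq_one_comm.1 hOO
  have hDO : D * O = O * Matrix.diagonal (fun z => lam (ht z)) := by
    ext x z
    rw [Matrix.mul_apply, Matrix.mul_diagonal]
    simp only [hO, Matrix.of_apply]
    rw [huD z x]; ring
  have hOD : Oᵀ * D = Matrix.diagonal (fun z => lam (ht z)) * Oᵀ := by
    have h1 := congrArg Matrix.transpose hDO
    rw [Matrix.transpose_mul, Matrix.transpose_mul, Matrix.diagonal_transpose, hD.eq] at h1
    exact h1
  refine ⟨O, hOO, ?_, ?_, ?_⟩
  · intro x y h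
    simp only [hO, Matrix.of_apply]
    exact huk y x h
  · intro y z hyz
    have h1 : (Oᵀ * C * O) * Matrix.diagonal (fun z => lam (ht z)) =
        Matrix.diagonal (fun z => lam (ht z)) * (Oᵀ * C * O) := by
      calc (Oᵀ * C * O) * Matrix.diagonal (fun z => lam (ht z))
          = Oᵀ * C * (O * Matrix.diagonal (fun z => lam (ht z))) := by
            simp only [Matrix.mul_assoc]
        _ = Oᵀ * (C * D) * O := by rw [← hDO]; simp only [Matrix.mul_assoc]
        _ = (Oᵀ * D) * C * O := by rw [hCD]; simp only [Matrix.mul_assoc]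
        _ = _ := by rw [hOD]; simp only [Matrix.mul_assoc]
    have h2 := congrFun (congrFun h1 y) z
    rw [Matrix.mul_diagonal, Matrix.diagonal_mul] at h2
    have h3 : (lam (ht z) - lam (ht y)) * (Oᵀ * C * O) y z = 0 := by linarith
    rcases mul_eq_zero.1 h3 with h4 | h4
    · exact absurd (hlam z y (sub_eq_zero.1 h4)).symm hyz
    · exact h4
  · intro y
    have h1 : (Oᵀ * C * O) y y = (Oᵀ * D * O) y y + gam (key y) * (Oᵀ * O) y y := by
      rw [Matrix.mul_apply, Matrix.mul_apply, Matrix.mul_apply, mul_sum, ← sum_add_distrib]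
      refine sum_congr rfl fun x' _ => ?_
      rw [Matrix.mul_apply, Matrix.mul_apply]
      simp only [Matrix.transpose_apply, hO, Matrix.of_apply]
      by_cases h2 : key x' = key y
      · have h3 : ∑ x, u y x * C x x' = ∑ x, u y x * D x x' + gam (key y) * u y x' := by
          have h4 : gam (key y) * u y x' = ∑ x, if x = x' then gam (key y) * u y x else 0 := by
            rw [sum_ite_eq' univ x' (fun x => gam (key y) * u y x), if_pos (mem_univ _)]
          rw [h4, ← sum_add_distrib]
          refine sum_congr rfl fun x _ => ?_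
          by_cases h5 : key x = key y
          · rw [hCd x x' (h5.trans h2.symm), h5]
            split_ifs <;> ring
          · rw [huk y x h5]
            split_ifs <;> ring
        rw [h3]; ring
      · rw [huk y x' h2]; ring
    have h6 : (Oᵀ * D * O) y y = lam (ht y) := by
      rw [Matrix.mul_assoc, hDO, ← Matrix.mul_assoc, hOO, Matrix.one_mul,
        Matrix.diagonal_apply_eq]
    rw [h1, h6, hOO, Matrix.one_apply_eq, mul_one]

end Vale.Agent.P328.Cas
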