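import Vale.Agent.P328.Cas.Defs

/-!
# P328, [B2]: the total Casimir operator commutes with every pair operator (on the lattice)
-/

namespace Vale.Agent.P328.Cas

open Finset Vale.Agent.P328.Ana

variable {n : ℕ}

namespace CommAux

/-- The total Casimir on three sites: `[L_ac + L_bc, L_ab] = 0`, in coordinates. -/
theorem triple_coord (A B C : ℝ) (g : ℤ → ℤ → ℤ → ℝ) (p q r : ℤ) :
    -- L_ab, L_ac, L_bc in coordinates
    let La : (ℤ → ℤ → ℤ → ℝ) → ℤ → ℤ → ℤ → ℝ := fun g p q r =>
      ((p : ℝ) * (B - q)) * (g (p - 1) (q + 1) r - g p q r) +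
      ((q : ℝ) * (A - p)) * (g (p + 1) (q - 1) r - g p q r)
    let Lb : (ℤ → ℤ → ℤ → ℝ) → ℤ → ℤ → ℤ → ℝ := fun g p q r =>
      ((p : ℝ) * (C - r)) * (g (p - 1) q (r + 1) - g p q r) +
      ((r : ℝ) * (A - p)) * (g (p + 1) q (r - 1) - g p q r)
    let Lc : (ℤ → ℤ → ℤ → ℝ) → ℤ → ℤ → ℤ → ℝ := fun g p q r =>
      ((q : ℝ) * (C - r)) * (g p (q - 1) (r + 1) - g p q r) +
      ((r : ℝ) * (B - q)) * (g p (q + 1) (r - 1) - g p q r)
    Lb (La g) p q r + Lc (La g) p q r = La (Lb g) p q r + La (Lc g) p q r := by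
  intro La Lb Lc
  simp only [La, Lb, Lc, sub_add_cancel, add_sub_cancel_right]
  push_cast
  ring

/-- Three coordinates replaced. -/
def P3 (a b c : Fin n) (y : Fin n → ℤ) (p q r : ℤ) : Fin n → ℤ := fun j =>
  if j = a then p else if j = b then q else if j = c then r else y j

theorem P3_self (a b c : Fin n) (y : Fin n → ℤ) : P3 a b c y (y a) (y b) (y c) = y := by
  funext j
  unfold P3
  split_ifs <;> simp_all

theorem Lo_symm (t : Fin n → ℕ) (a b : Fin n) (G : (Fin n → ℤ) → ℝ) (y : Fin n → ℤ) :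
    Lo t a b G y = Lo t b a G y := by
  unfold Lo
  ring

theorem Lo_self (t : Fin n → ℕ) (a : Fin n) (G : (Fin n → ℤ) → ℝ) (y : Fin n → ℤ) :
    Lo t a a G y = 0 := by
  unfold Lo
  have : mv a a y = y := by
    unfold mv
    simp
  rw [this]
  ring

theorem Lo_ab {t : Fin n → ℕ} {a b c : Fin n} (hab : a ≠ b) (hac : a ≠ c) (hbc : b ≠ c)
    (G : (Fin n → ℤ) → ℝ) (y : Fin n → ℤ) (p q r : ℤ) :
    Lo t a b G (P3 a b c y p q r) =
      ((p : ℝ) * ((t b : ℝ) - q)) * (G (P3 a b c y (p - 1) (q + 1) r) - G (P3 a b c y p q r)) +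
      ((q : ℝ) * ((t a : ℝ) - p)) * (G (P3 a b c y (p + 1) (q - 1) r) - G (P3 a b c y p q r)) := by
  have e1 : mv a b (P3 a b c y p q r) = P3 a b c y (p - 1) (q + 1) r := by
    funext j
    simp only [mv, P3, Pi.add_apply, Pi.sub_apply, Pi.single_apply]
    by_cases h1 : j = a
    · subst h1; simp [hab]
    · by_cases h2 : j = b
      · subst h2; simp [h1]
      · simp [h1, h2]
  have e2 : mv b a (P3 a b c y p q r) = P3 a b c y (p + 1) (q - 1) r := by
    funext j
    simp only [mv, P3, Pi.add_apply, Pi.sub_apply, Pi.single_apply]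
    by_cases h1 : j = a
    · subst h1; simp [hab]
    · by_cases h2 : j = b
      · subst h2; simp [h1]
      · simp [h1, h2]
  have ha : P3 a b c y p q r a = p := by simp [P3]
  have hb : P3 a b c y p q r b = q := by simp [P3, hab.symm]
  unfold Lo rt
  rw [e1, e2, ha, hb]

theorem Lo_ac {t : Fin n → ℕ} {a b c : Fin n} (hab : a ≠ b) (hac : a ≠ c) (hbc : b ≠ c)
    (G : (Fin n → ℤ) → ℝ) (y : Fin n → ℤ) (p q r : ℤ) :
    Lo t a c G (P3 a b c y p q r) =
      ((p : ℝ) * ((t c : ℝ) - r)) * (G (P3 a b c y (p - 1) q (r + 1)) - G (P3 a b c y p q r)) +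
      ((r : ℝ) * ((t a : ℝ) - p)) * (G (P3 a b c y (p + 1) q (r - 1)) - G (P3 a b c y p q r)) := by
  have e1 : mv a c (P3 a b c y p q r) = P3 a b c y (p - 1) q (r + 1) := by
    funext j
    simp only [mv, P3, Pi.add_apply, Pi.sub_apply, Pi.single_apply]
    by_cases h1 : j = a
    · subst h1; simp [hac]
    · by_cases h2 : j = b
      · subst h2; simp [h1, hbc]
      · by_cases h3 : j = c
        · subst h3; simp [h1, h2]
        · simp [h1, h2, h3]
  have e2 : mv c a (P3 a b c y p q r) = P3 a b c y (p + 1) q (r - 1) := by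
    funext j
    simp only [mv, P3, Pi.add_apply, Pi.sub_apply, Pi.single_apply]
    by_cases h1 : j = a
    · subst h1; simp [hac]
    · by_cases h2 : j = b
      · subst h2; simp [h1, hbc]
      · by_cases h3 : j = c
        · subst h3; simp [h1, h2]
        · simp [h1, h2, h3]
  have ha : P3 a b c y p q r a = p := by simp [P3]
  have hc : P3 a b c y p q r c = r := by simp [P3, hac.symm, hbc.symm]
  unfold Lo rt
  rw [e1, e2, ha, hc]

theorem Lo_bc {t : Fin n → ℕ} {a b c : Fin n} (hab : a ≠ b) (hac : a ≠ c) (hbc : b ≠ c)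
    (G : (Fin n → ℤ) → ℝ) (y : Fin n → ℤ) (p q r : ℤ) :
    Lo t b c G (P3 a b c y p q r) =
      ((q : ℝ) * ((t c : ℝ) - r)) * (G (P3 a b c y p (q - 1) (r + 1)) - G (P3 a b c y p q r)) +
      ((r : ℝ) * ((t b : ℝ) - q)) * (G (P3 a b c y p (q + 1) (r - 1)) - G (P3 a b c y p q r)) := by
  have e1 : mv b c (P3 a b c y p q r) = P3 a b c y p (q - 1) (r + 1) := by
    funext j
    simp only [mv, P3, Pi.add_apply, Pi.sub_apply, Pi.single_apply]
    by_cases h1 : j = a
    · subst h1; simp [hab, hac]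
    · by_cases h2 : j = b
      · subst h2; simp [h1, hbc]
      · by_cases h3 : j = c
        · subst h3; simp [h1, h2]
        · simp [h1, h2, h3]
  have e2 : mv c b (P3 a b c y p q r) = P3 a b c y p (q + 1) (r - 1) := by
    funext j
    simp only [mv, P3, Pi.add_apply, Pi.sub_apply, Pi.single_apply]
    by_cases h1 : j = a
    · subst h1; simp [hab, hac]
    · by_cases h2 : j = b
      · subst h2; simp [h1, hbc]
      · by_cases h3 : j = c
        · subst h3; simp [h1, h2]
        · simp [h1, h2, h3]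
  have hb : P3 a b c y p q r b = q := by simp [P3, hab.symm]
  have hc : P3 a b c y p q r c = r := by simp [P3, hac.symm, hbc.symm]
  unfold Lo rt
  rw [e1, e2, hb, hc]

theorem triple (t : Fin n → ℕ) {a b c : Fin n} (hab : a ≠ b) (hac : a ≠ c) (hbc : b ≠ c)
    (G : (Fin n → ℤ) → ℝ) (y : Fin n → ℤ) :
    Lo t a c (Lo t a b G) y + Lo t b c (Lo t a b G) y =
      Lo t a b (Lo t a c G) y + Lo t a b (Lo t b c G) y := by
  have key := triple_coord (t a) (t b) (t c) (fun p q r => G (P3 a b c y p q r))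
    (y a) (y b) (y c)
  have hy := P3_self a b c y
  simp only at key
  rw [← hy]
  simp only [Lo_ab hab hac hbc, Lo_ac hab hac hbc, Lo_bc hab hac hbc]
  exact key

theorem disj (t : Fin n → ℕ) {a b c d : Fin n} (hac : c ≠ a) (had : d ≠ a) (hbc : c ≠ b)
    (hbd : d ≠ b) (G : (Fin n → ℤ) → ℝ) (y : Fin n → ℤ) :
    Lo t c d (Lo t a b G) y = Lo t a b (Lo t c d G) y := by
  have m : ∀ i j k l : Fin n, ∀ y : Fin n → ℤ, mv i j (mv k l y) = mv k l (mv i j y) := by
    intro i j k l y
    unfold mv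
    abel
  have r : ∀ i j k l : Fin n, i ≠ k → i ≠ l → j ≠ k → j ≠ l → ∀ y : Fin n → ℤ,
      rt t i j (mv k l y) = rt t i j y := by
    intro i j k l h1 h2 h3 h4 y
    have e1 : mv k l y i = y i := by
      simp [mv, h1, h2]
    have e2 : mv k l y j = y j := by
      simp [mv, h3, h4]
    unfold rt
    rw [e1, e2]
  unfold Lo
  rw [r a b c d hac.symm had.symm hbc.symm hbd.symm, r a b d c had.symm hac.symm hbd.symm hbc.symm,
    r b a c d hbc.symm hbd.symm hac.symm had.symm, r b a d c hbd.symm hbc.symm had.symm hac.symm,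
    r c d a b hac hbc had hbd, r c d b a hbc hac hbd had, r d c a b had hbd hac hbc,
    r d c b a hbd had hbc hac, m a b c d, m a b d c, m b a c d, m b a d c]
  ring

theorem two_sum_prs (D : Fin n → Fin n → ℝ) (hs : ∀ i j, D i j = D j i) (h0 : ∀ i, D i i = 0) :
    2 * ∑ p ∈ prs n, D p.1 p.2 = ∑ i, ∑ j, D i j := by
  have h1 : ∑ i, ∑ j, D i j = ∑ p : Fin n × Fin n, D p.1 p.2 := by
    rw [Fintype.sum_prod_type]
  have h2 : ∑ p : Fin n × Fin n, D p.1 p.2 =
      ∑ p : Fin n × Fin n, ((if p.1 < p.2 then D p.1 p.2 else 0) +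
        (if p.2 < p.1 then D p.1 p.2 else 0)) := by
    refine Finset.sum_congr rfl fun p _ => ?_
    rcases lt_trichotomy p.1 p.2 with h | h | h
    · simp [h, h.not_gt]
    · rw [h, h0]; simp
    · simp [h, h.not_gt]
  have h3 : ∑ p : Fin n × Fin n, (if p.2 < p.1 then D p.1 p.2 else 0) =
      ∑ p : Fin n × Fin n, (if p.1 < p.2 then D p.1 p.2 else 0) := by
    refine Fintype.sum_equiv (Equiv.prodComm _ _) _ _ fun p => ?_
    simp only [Equiv.prodComm_apply, Prod.fst_swap, Prod.snd_swap]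
    rw [hs p.1 p.2]
    rfl
  rw [h1, h2, Finset.sum_add_distrib, h3]
  unfold prs
  rw [Finset.sum_filter]
  ring

theorem Lo_sub (t : Fin n → ℕ) (a b : Fin n) {ι : Type*} (s : Finset ι)
    (G : ι → (Fin n → ℤ) → ℝ) (y : Fin n → ℤ) :
    Lo t a b (fun z => ∑ i ∈ s, G i z) y = ∑ i ∈ s, Lo t a b (G i) y := by
  unfold Lo
  rw [← Finset.sum_sub_distrib, ← Finset.sum_sub_distrib, Finset.mul_sum, Finset.mul_sum,
    ← Finset.sum_add_distrib]

end CommAux

open CommAux in
theorem Lo_comm (t : Fin n → ℕ) (a b : Fin n) (hab : a ≠ b) (G : (Fin n → ℤ) → ℝ)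
    (y : Fin n → ℤ) :
    ∑ p ∈ prs n, Lo t p.1 p.2 (Lo t a b G) y =
      Lo t a b (fun z => ∑ p ∈ prs n, Lo t p.1 p.2 G z) y := by
  rw [Lo_sub t a b (prs n) (fun p => Lo t p.1 p.2 G) y]
  rw [← sub_eq_zero, ← Finset.sum_sub_distrib]
  set D : Fin n → Fin n → ℝ := fun i j => Lo t i j (Lo t a b G) y - Lo t a b (Lo t i j G) y with hD
  have hs : ∀ i j, D i j = D j i := by
    intro i j
    have : Lo t i j G = Lo t j i G := funext (Lo_symm t i j G)
    simp only [hD]
    rw [Lo_symm t i j, this]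
  have h0 : ∀ i, D i i = 0 := by
    intro i
    have : Lo t i i G = fun _ => 0 := funext (Lo_self t i G)
    simp only [hD]
    rw [Lo_self, this]
    unfold Lo
    ring
  have hab0 : D a b = 0 := by simp only [hD]; ring
  have hdis : ∀ c d, c ≠ a → c ≠ b → d ≠ a → d ≠ b → D c d = 0 := by
    intro c d h1 h2 h3 h4
    simp only [hD]
    rw [disj t h1 h3 h2 h4]
    ring
  have htri : ∀ c, D a c + D b c = 0 := by
    intro c
    by_cases h1 : c = a
    · subst h1
      rw [h0, hs b c, hab0]; ring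
    by_cases h2 : c = b
    · subst h2
      rw [h0, hab0]; ring
    have := triple t hab (Ne.symm h1) (Ne.symm h2) G y
    simp only [hD]
    linarith
  have h2 := two_sum_prs D hs h0
  have h3 : ∑ i, ∑ j, D i j = 0 := by
    have hrow : ∀ i, i ≠ a → i ≠ b → ∑ j, D i j = 0 := by
      intro i hia hib
      have : ∑ j, D i j = ∑ j ∈ ({a, b} : Finset (Fin n)), D i j := by
        symm
        refine Finset.sum_subset (Finset.subset_univ _) fun j _ hj => ?_
        simp only [Finset.mem_insert, Finset.mem_singleton, not_or] at hj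
        exact hdis i j hia hib hj.1 hj.2
      rw [this, Finset.sum_pair hab, hs i a, hs i b]
      exact htri i
    have : ∑ i, ∑ j, D i j = ∑ i ∈ ({a, b} : Finset (Fin n)), ∑ j, D i j := by
      symm
      refine Finset.sum_subset (Finset.subset_univ _) fun i _ hi => ?_
      simp only [Finset.mem_insert, Finset.mem_singleton, not_or] at hi
      exact hrow i hi.1 hi.2
    rw [this, Finset.sum_pair hab, ← Finset.sum_add_distrib]
    exact Finset.sum_eq_zero fun j _ => htri j
  have : ∑ p ∈ prs n, D p.1 p.2 = 0 := by linarith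
  exact this

end Vale.Agent.P328.Cas
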