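import Vale.Agent.P328.Cas.Defs

/-!
# P328, [C3]: connectivity of the two-row class under the hops of `Ct`
-/

namespace Vale.Agent.P328.Cas

open Finset Vale.Agent.P328.Ana

variable {n : ℕ}

theorem wt_pos_conn {t : Fin n → ℕ} {s : ℕ} (x : Pt t s) : 0 < wt t x.1 := by
  unfold wt
  refine Finset.prod_pos fun j _ => ?_
  have h := (mem_Om.1 x.2).1 j
  exact_mod_cast Nat.choose_pos h

theorem rt_nonneg_conn {t : Fin n → ℕ} {s : ℕ} (a b : Fin n) (x : Pt t s) :
    0 ≤ rt t a b (zc x) := by
  unfold rt zc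
  have h := (mem_Om.1 x.2).1 b
  have h' : ((x.1 b : ℕ) : ℝ) ≤ (t b : ℝ) := by exact_mod_cast h
  push_cast
  exact mul_nonneg (Nat.cast_nonneg _) (by linarith)

theorem zc_inj_conn {t : Fin n → ℕ} {s : ℕ} {x y : Pt t s} (h : zc x = zc y) : x = y := by
  apply Subtype.ext
  funext j
  have := congrFun h j
  simpa [zc] using this

theorem Mp_nonneg_conn (t : Fin n → ℕ) (s : ℕ) (a b : Fin n) (x z : Pt t s) (hxz : x ≠ z) :
    0 ≤ Mp t s a b x z := by
  have h0 : ¬ (zc x = zc z) := fun h => hxz (zc_inj_conn h)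
  simp only [Mp, Matrix.of_apply, Lo, if_neg h0, sub_zero]
  have h1 := rt_nonneg_conn a b x
  have h2 := rt_nonneg_conn b a x
  apply add_nonneg <;> apply mul_nonneg <;> first | assumption | (split_ifs <;> norm_num)

theorem Cp_nonneg_conn (t : Fin n → ℕ) (s : ℕ) (a b : Fin n) (x z : Pt t s) (hxz : x ≠ z) :
    0 ≤ Cp t s a b x z := by
  simp only [Cp, Matrix.of_apply]
  exact div_nonneg (mul_nonneg (Real.sqrt_nonneg _) (Mp_nonneg_conn t s a b x z hxz))
    (Real.sqrt_nonneg _)

theorem Mp_pos_conn (t : Fin n → ℕ) (s : ℕ) (a b : Fin n) (x z : Pt t s) (hxz : x ≠ z)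
    (hm : mv a b (zc x) = zc z) (hr : 0 < rt t a b (zc x)) :
    0 < Mp t s a b x z ∧ 0 < Mp t s b a x z := by
  have h0 : ¬ (zc x = zc z) := fun h => hxz (zc_inj_conn h)
  have h2 := rt_nonneg_conn b a x
  have h3 : 0 ≤ rt t b a (zc x) * (if mv b a (zc x) = zc z then (1 : ℝ) else 0) :=
    mul_nonneg h2 (by split_ifs <;> norm_num)
  constructor <;> simp only [Mp, Matrix.of_apply, Lo, if_neg h0, sub_zero, if_pos hm, mul_one] <;>
    linarith

theorem Cp_pos_conn (t : Fin n → ℕ) (s : ℕ) (a b : Fin n) (x z : Pt t s)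
    (h : 0 < Mp t s a b x z) : 0 < Cp t s a b x z := by
  simp only [Cp, Matrix.of_apply]
  exact div_pos (mul_pos (Real.sqrt_pos.2 (wt_pos_conn x)) h) (Real.sqrt_pos.2 (wt_pos_conn z))

theorem Ct_ne_conn (t : Fin n → ℕ) (s : ℕ) (a b : Fin n) (hab : a ≠ b) (x z : Pt t s)
    (hxz : x ≠ z) (hm : mv a b (zc x) = zc z) (hr : 0 < rt t a b (zc x)) : Ct t s x z ≠ 0 := by
  obtain ⟨h1, h2⟩ := Mp_pos_conn t s a b x z hxz hm hr
  have hsum : Ct t s x z = ∑ p ∈ prs n, Cp t s p.1 p.2 x z := by
    simp [Ct, Matrix.sum_apply]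
  rw [hsum]
  have hpos : ∃ p ∈ prs n, 0 < Cp t s p.1 p.2 x z := by
    rcases lt_or_gt_of_ne hab with h | h
    · exact ⟨(a, b), by simp [prs, h], Cp_pos_conn t s a b x z h1⟩
    · exact ⟨(b, a), by simpa [prs] using h, Cp_pos_conn t s b a x z h2⟩
  exact ne_of_gt (Finset.sum_pos' (fun p _ => Cp_nonneg_conn t s p.1 p.2 x z hxz) hpos)

/-- connectivity -/
theorem Ct_conn (t : Fin n → ℕ) (s : ℕ) (f : Pt t s → ℝ)
    (hf : ∀ x y, Ct t s x y ≠ 0 → f x = f y) (x y : Pt t s) : f x = f y := by
  -- strong induction on the distance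
  suffices H : ∀ N : ℕ, ∀ x y : Pt t s, ∑ j, (x.1 j - y.1 j) ≤ N → f x = f y from
    H _ x y le_rfl
  intro N
  induction N with
  | zero =>
    intro x y h
    have hle : ∀ j, x.1 j ≤ y.1 j := by
      intro j
      have h1 : x.1 j - y.1 j ≤ ∑ j, (x.1 j - y.1 j) :=
        Finset.single_le_sum (f := fun j => x.1 j - y.1 j) (fun _ _ => Nat.zero_le _) (mem_univ j)
      omega
    have hs : ∑ j, x.1 j = ∑ j, y.1 j := by
      rw [(mem_Om.1 x.2).2, (mem_Om.1 y.2).2]
    have : x = y := by
      apply Subtype.ext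
      funext j
      have := (Finset.sum_eq_sum_iff_of_le (fun j _ => hle j)).1 hs j (mem_univ j)
      exact this
    rw [this]
  | succ N ih =>
    intro x y h
    by_cases hxy : x = y
    · rw [hxy]
    have hs : ∑ j, x.1 j = ∑ j, y.1 j := by
      rw [(mem_Om.1 x.2).2, (mem_Om.1 y.2).2]
    -- a column where x is larger
    obtain ⟨a, ha⟩ : ∃ a, y.1 a < x.1 a := by
      by_contra hcon
      push Not at hcon
      apply hxy
      apply Subtype.ext
      funext j
      exact (Finset.sum_eq_sum_iff_of_le (fun j _ => hcon j)).1 hs j (mem_univ j)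
    obtain ⟨b, hb⟩ : ∃ b, x.1 b < y.1 b := by
      by_contra hcon
      push Not at hcon
      apply hxy
      apply Subtype.ext
      funext j
      exact ((Finset.sum_eq_sum_iff_of_le (fun j _ => hcon j)).1 hs.symm j (mem_univ j)).symm
    have hab : a ≠ b := by rintro rfl; omega
    -- the new point
    set z0 : Fin n → ℕ := Function.update (Function.update x.1 a (x.1 a - 1)) b (x.1 b + 1) with hz0
    have hza : z0 a = x.1 a - 1 := by simp [hz0, hab]
    have hzb : z0 b = x.1 b + 1 := by simp [hz0]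
    have hzj : ∀ j, j ≠ a → j ≠ b → z0 j = x.1 j := by
      intro j h1 h2; simp [hz0, h1, h2]
    have hbox := (mem_Om.1 x.2).1
    have hboy := (mem_Om.1 y.2).1
    have hz : z0 ∈ Om t s := by
      rw [mem_Om]
      constructor
      · intro j
        by_cases h1 : j = a
        · subst h1; rw [hza]; have := hbox j; omega
        · by_cases h2 : j = b
          · subst h2; rw [hzb]; have := hboy j; omega
          · rw [hzj j h1 h2]; exact hbox j
      · rw [← (mem_Om.1 x.2).2]
        have e1 : ∀ g : Fin n → ℕ, ∑ j, g j = g a + g b + ∑ j ∈ (univ.erase a).erase b, g j := by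
          intro g
          rw [← Finset.add_sum_erase univ g (mem_univ a),
            ← Finset.add_sum_erase (univ.erase a) g (Finset.mem_erase.2 ⟨hab.symm, mem_univ b⟩)]
          ring
        rw [e1 z0, e1 x.1, hza, hzb]
        have e2 : ∑ j ∈ (univ.erase a).erase b, z0 j = ∑ j ∈ (univ.erase a).erase b, x.1 j := by
          apply Finset.sum_congr rfl
          intro j hj
          rw [Finset.mem_erase, Finset.mem_erase] at hj
          exact hzj j hj.2.1 hj.1
        rw [e2]; omega
    let z : Pt t s := ⟨z0, hz⟩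
    have hxz : x ≠ z := by
      intro h1
      have h2 : x.1 b = z0 b := by rw [h1]
      omega
    have hm : mv a b (zc x) = zc z := by
      funext j
      simp only [mv, zc, Pi.add_apply, Pi.sub_apply, z]
      by_cases h1 : j = a
      · subst h1
        rw [hza]
        simp [hab]
        omega
      · by_cases h2 : j = b
        · subst h2
          rw [hzb]
          simp [h1]
        · rw [hzj j h1 h2]
          simp [h1, h2]
    have hr : 0 < rt t a b (zc x) := by
      unfold rt zc
      have h1 : (1 : ℝ) ≤ (x.1 a : ℝ) := by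
        have : 1 ≤ x.1 a := by omega
        exact_mod_cast this
      have h2 : (x.1 b : ℝ) + 1 ≤ (t b : ℝ) := by
        have : x.1 b + 1 ≤ t b := by have := hboy b; omega
        exact_mod_cast this
      push_cast
      exact mul_pos (by linarith) (by linarith)
    have hfx : f x = f z := hf x z (Ct_ne_conn t s a b hab x z hxz hm hr)
    have hdist : ∑ j, (z.1 j - y.1 j) < ∑ j, (x.1 j - y.1 j) := by
      apply Finset.sum_lt_sum
      · intro j _
        show z0 j - y.1 j ≤ x.1 j - y.1 j
        by_cases h1 : j = a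
        · subst h1; rw [hza]; omega
        · by_cases h2 : j = b
          · subst h2; rw [hzb]; omega
          · rw [hzj j h1 h2]
      · refine ⟨a, mem_univ a, ?_⟩
        show z0 a - y.1 a < x.1 a - y.1 a
        rw [hza]; omega
    rw [hfx]
    exact ih z y (by omega)

end Vale.Agent.P328.Cas
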