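import Vale.Agent.P328.Ana.Basic
import Mathlib.Data.Matrix.Mul
import Mathlib.LinearAlgebra.Matrix.Symmetric
import Mathlib.Analysis.SpecialFunctions.Sqrt

/-!
# P328, [CAS]: the Casimir matrices of a two-row class

Everything lives on the points of `Om t s`, as a type `Pt t s`.  The operators are first defined
on functions on the lattice `Fin n → ℤ`, where no truncated subtraction occurs.
-/

namespace Vale.Agent.P328.Cas

open Finset Vale.Agent.P328.Ana

variable {n : ℕ}

/-- The points of a two-row class, as a type. -/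
abbrev Pt (t : Fin n → ℕ) (s : ℕ) : Type := {x : Fin n → ℕ // x ∈ Om t s}

/-- The lattice point of a point of the class. -/
def zc {t : Fin n → ℕ} {s : ℕ} (x : Pt t s) : Fin n → ℤ := fun j => (x.1 j : ℤ)

/-- Move one token from column `a` to column `b`. -/
def mv (a b : Fin n) (y : Fin n → ℤ) : Fin n → ℤ := y - Pi.single a 1 + Pi.single b 1

/-- The rate of the move of one token from column `a` to column `b`. -/
def rt (t : Fin n → ℕ) (a b : Fin n) (y : Fin n → ℤ) : ℝ := (y a : ℝ) * ((t b : ℝ) - (y b : ℝ))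

/-- The pair operator on functions on the lattice. -/
def Lo (t : Fin n → ℕ) (a b : Fin n) (G : (Fin n → ℤ) → ℝ) (y : Fin n → ℤ) : ℝ :=
  rt t a b y * (G (mv a b y) - G y) + rt t b a y * (G (mv b a y) - G y)

/-- The matrix of the pair operator on the class. -/
def Mp (t : Fin n → ℕ) (s : ℕ) (a b : Fin n) : Matrix (Pt t s) (Pt t s) ℝ :=
  Matrix.of fun y x => Lo t a b (fun z => if z = zc x then 1 else 0) (zc y)

/-- The weight of a point. -/
def wt (t : Fin n → ℕ) (x : Fin n → ℕ) : ℝ := ∏ j, ((t j).choose (x j) : ℝ)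

/-- The symmetrised pair matrix. -/
noncomputable def Cp (t : Fin n → ℕ) (s : ℕ) (a b : Fin n) : Matrix (Pt t s) (Pt t s) ℝ :=
  Matrix.of fun y x => √(wt t y.1) * Mp t s a b y x / √(wt t x.1)

/-- The total symmetrised matrix. -/
noncomputable def Ct (t : Fin n → ℕ) (s : ℕ) : Matrix (Pt t s) (Pt t s) ℝ :=
  ∑ p ∈ prs n, Cp t s p.1 p.2

/-- The eigenvalues of a pair matrix. -/
def lam (T k : ℕ) : ℝ := -((k : ℝ) * ((T : ℝ) + 1 - k))

/-- The type of pairs. -/
abbrev Pr (n : ℕ) : Type := {p : Fin n × Fin n // p ∈ prs n}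

end Vale.Agent.P328.Cas
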