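import Vale.Agent.P328.Cas.MatBase
import Vale.Agent.P328.Ana.Hahn

/-!
# P328, [B1e]: an eigenvector of the pair matrix for each point of the class
-/

namespace Vale.Agent.P328.Cas

open Finset Matrix Vale.Agent.P328.Ana

variable {n : ℕ}

/-- equality of keys in terms of coordinates -/
theorem eig_key_iff {a b : Fin n} {x y : Fin n → ℕ} :
    key a b x = key a b y ↔ ∀ j, j ≠ a → j ≠ b → x j = y j := by
  constructor
  · intro h j ha hb
    have := congrFun h j
    simpa [key, ha, hb] using this
  · intro h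
    funext j
    unfold key
    by_cases hj : j = a ∨ j = b
    · rw [if_pos hj, if_pos hj]
    · rw [if_neg hj, if_neg hj]
      push Not at hj
      exact h j hj.1 hj.2

/-- points with the same key have the same pair sum -/
theorem eig_key_sum {t : Fin n → ℕ} {s : ℕ} {a b : Fin n} (hab : a ≠ b) {x y : Pt t s}
    (h : key a b x.1 = key a b y.1) : x.1 a + x.1 b = y.1 a + y.1 b := by
  have hx := (mem_Om.1 x.2).2
  have hy := (mem_Om.1 y.2).2
  have e : ∀ z : Fin n → ℕ, ∑ j, z j = z a + z b + ∑ j ∈ (univ.erase a).erase b, z j := by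
    intro z
    rw [← add_sum_erase univ z (mem_univ a),
      ← add_sum_erase (univ.erase a) z (mem_erase.2 ⟨hab.symm, mem_univ b⟩)]
    ring
  rw [e] at hx hy
  have : ∑ j ∈ (univ.erase a).erase b, x.1 j = ∑ j ∈ (univ.erase a).erase b, y.1 j := by
    apply sum_congr rfl
    intro j hj
    rw [mem_erase, mem_erase] at hj
    exact eig_key_iff.1 h j hj.2.1 hj.1
  omega

theorem eigen_exists (t : Fin n → ℕ) (s : ℕ) (a b : Fin n) (hab : a ≠ b) (z : Pt t s) :
    ∃ v : Pt t s → ℝ, (∃ x, v x ≠ 0) ∧
      (∀ x : Pt t s, key a b x.1 ≠ key a b z.1 → v x = 0) ∧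
      ∀ x, ∑ y, Cp t s a b x y * v y = lam (t a + t b) (ht t a b z.1) * v x := by
  classical
  have hz := mem_Om.1 z.2
  have hza := hz.1 a
  have hzb := hz.1 b
  set ρ : ℕ := z.1 a + z.1 b with hρ
  have hk : ρ - t b + ht t a b z.1 = z.1 a := by
    unfold ht
    omega
  have hk2 : 2 * ht t a b z.1 ≤ t a + t b := by
    unfold ht
    omega
  have hk3 : 2 * ((ht t a b z.1 : ℕ) : ℝ) ≤ (t a : ℝ) + (t b : ℝ) := by exact_mod_cast hk2
  obtain ⟨q, hq1, hq2⟩ := Hahn.exists_eig (t a) (t b) ρ (ht t a b z.1)
    (fun j hj => Hahn.lam_ne _ j _ hj hk3)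
  -- the lattice function
  let G : (Fin n → ℤ) → ℝ := fun u =>
    if ∀ j, j ≠ a → j ≠ b → u j = (z.1 j : ℤ) then q (u a).toNat else 0
  have hout : ∀ x : Pt t s, ∀ u : Fin n → ℤ, (∀ j, j ≠ a → j ≠ b → u j = zc x j) →
      G u = if key a b x.1 = key a b z.1 then q (u a).toNat else 0 := by
    intro x u hu
    have hiff : (∀ j, j ≠ a → j ≠ b → u j = (z.1 j : ℤ)) ↔ key a b x.1 = key a b z.1 := by
      rw [eig_key_iff]
      constructor
      · intro h' j h1 h2
        have h3 := h' j h1 h2
        rw [hu j h1 h2] at h3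
        unfold zc at h3
        exact_mod_cast h3
      · intro h' j h1 h2
        rw [hu j h1 h2]
        unfold zc
        exact_mod_cast h' j h1 h2
    show (if ∀ j, j ≠ a → j ≠ b → u j = (z.1 j : ℤ) then q (u a).toNat else 0) = _
    by_cases h : key a b x.1 = key a b z.1
    · rw [if_pos h, if_pos (hiff.2 h)]
    · rw [if_neg h, if_neg (fun h' => h (hiff.1 h'))]
  have hGx : ∀ x : Pt t s, G (zc x) = if key a b x.1 = key a b z.1 then q (x.1 a) else 0 := by
    intro x
    rw [hout x (zc x) (fun _ _ _ => rfl)]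
    have : (zc x a).toNat = x.1 a := by simp [zc]
    rw [this]
  refine ⟨fun x => √(wt t x.1) * G (zc x), ?_, ?_, ?_⟩
  · obtain ⟨X, hX1, hX2, hX3⟩ := hq2 (ρ - t b)
    rw [hk] at hX2
    let x : Fin n → ℕ := fun j => if j = a then X else if j = b then ρ - X else z.1 j
    have hxa : x a = X := by simp [x]
    have hxb : x b = ρ - X := by simp [x, hab.symm]
    have hxj : ∀ j, j ≠ a → j ≠ b → x j = z.1 j := by
      intro j h1 h2; simp [x, h1, h2]
    have e : ∀ w : Fin n → ℕ, ∑ j, w j = w a + w b + ∑ j ∈ (univ.erase a).erase b, w j := by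
      intro w
      rw [← add_sum_erase univ w (mem_univ a),
        ← add_sum_erase (univ.erase a) w (mem_erase.2 ⟨hab.symm, mem_univ b⟩)]
      ring
    have hxO : x ∈ Om t s := by
      rw [mem_Om]
      constructor
      · intro j
        by_cases h1 : j = a
        · rw [h1, hxa]; omega
        · by_cases h2 : j = b
          · rw [h2, hxb]; omega
          · rw [hxj j h1 h2]; exact hz.1 j
      · rw [e x, hxa, hxb]
        have h2 := hz.2
        rw [e z.1] at h2
        have : ∑ j ∈ (univ.erase a).erase b, x j = ∑ j ∈ (univ.erase a).erase b, z.1 j := by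
          apply sum_congr rfl
          intro j hj
          rw [mem_erase, mem_erase] at hj
          exact hxj j hj.2.1 hj.1
        omega
    refine ⟨⟨x, hxO⟩, ?_⟩
    have hkey : key a b x = key a b z.1 := eig_key_iff.2 hxj
    have h5 : G (zc (⟨x, hxO⟩ : Pt t s)) = q X := by
      rw [hGx, if_pos hkey]
      show q (x a) = q X
      rw [hxa]
    show √(wt t x) * G (zc (⟨x, hxO⟩ : Pt t s)) ≠ 0
    rw [h5]
    exact mul_ne_zero (Real.sqrt_pos.2 (wt_pos (⟨x, hxO⟩ : Pt t s))).ne' hX3
  · intro x hx
    simp only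
    rw [hGx, if_neg hx, mul_zero]
  · intro x
    have h1 : ∑ y, Cp t s a b x y * (√(wt t y.1) * G (zc y))
        = √(wt t x.1) * ∑ y, Mp t s a b x y * G (zc y) := by
      rw [mul_sum]
      apply sum_congr rfl
      intro y _
      have hy := (Real.sqrt_pos.2 (wt_pos y)).ne'
      simp only [Cp, Matrix.of_apply]
      field_simp
    simp only
    rw [h1, Mp_mulVec t s a b hab]
    have h2 : Lo t a b G (zc x) = lam (t a + t b) (ht t a b z.1) * G (zc x) := by
      unfold Lo
      have m1 : ∀ j, j ≠ a → j ≠ b → mv a b (zc x) j = zc x j := by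
        intro j h1 h2
        simp [mv, h1, h2]
      have m2 : ∀ j, j ≠ a → j ≠ b → mv b a (zc x) j = zc x j := by
        intro j h1 h2
        simp [mv, h1, h2]
      rw [hout x _ m1, hout x _ m2, hGx]
      by_cases h : key a b x.1 = key a b z.1
      · simp only [if_pos h]
        have hs := eig_key_sum hab h
        have ha1 : (mv a b (zc x) a).toNat = x.1 a - 1 := by
          simp [mv, zc, hab]
        have ha2 : (mv b a (zc x) a).toNat = x.1 a + 1 := by
          simp [mv, zc, hab]
        rw [ha1, ha2]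
        have hq := hq1 (x.1 a)
        unfold Hahn.L Hahn.lam at hq
        have hr : (ρ : ℝ) = (x.1 a : ℝ) + (x.1 b : ℝ) := by
          have : ρ = x.1 a + x.1 b := by omega
          rw [this]; push_cast; ring
        rw [hr] at hq
        simp only [rt, zc, lam]
        push_cast at hq ⊢
        linear_combination hq
      · simp only [if_neg h]
        ring
    rw [h2]
    ring

end Vale.Agent.P328.Cas
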