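import Vale.Agent.P328.Cas.Defs
import Vale.Agent.P328.Ana.Expl

/-!
# P328, [C2]: keys, heights and the diagonal of the Casimir matrices
-/

namespace Vale.Agent.P328.Cas

open Finset Matrix Vale.Agent.P328.Ana

variable {n : ℕ}

namespace KeysAux

theorem mv_apply_ne (a b j : Fin n) (y : Fin n → ℤ) (ha : j ≠ a) (hb : j ≠ b) :
    mv a b y j = y j := by
  simp [mv, ha, hb]

theorem key_of_mv {t : Fin n → ℕ} {s : ℕ} {a b : Fin n} {x y : Pt t s}
    (h : mv a b (zc x) = zc y) : key a b x.1 = key a b y.1 := by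
  funext j
  by_cases ha : j = a
  · simp [key, ha]
  by_cases hb : j = b
  · simp [key, hb]
  have h1 := congrFun h j
  rw [mv_apply_ne a b j _ ha hb] at h1
  simp only [zc, Nat.cast_inj] at h1
  simp [key, ha, hb, h1]

theorem zc_inj {t : Fin n → ℕ} {s : ℕ} {x y : Pt t s} (h : zc x = zc y) : x = y := by
  apply Subtype.ext
  funext j
  have h1 := congrFun h j
  simpa only [zc, Nat.cast_inj] using h1

theorem Mp_key {t : Fin n → ℕ} {s : ℕ} {a b : Fin n} {x y : Pt t s}
    (h : key a b x.1 ≠ key a b y.1) : Mp t s a b x y = 0 := by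
  have h1 : mv a b (zc x) ≠ zc y := fun h' => h (key_of_mv h')
  have h2 : mv b a (zc x) ≠ zc y := fun h' => by
    apply h
    have h3 := key_of_mv h'
    funext j
    have h4 := congrFun h3 j
    simp only [key, or_comm] at h4 ⊢
    exact h4
  have h3 : zc x ≠ zc y := fun h' => h (by rw [zc_inj h'])
  simp [Mp, Lo, h1, h2, h3]

theorem wt_pos' {t : Fin n → ℕ} {s : ℕ} (x : Pt t s) : 0 < wt t x.1 := by
  unfold wt
  apply Finset.prod_pos
  intro j _
  have := (mem_Om.1 x.2).1 j
  exact_mod_cast Nat.choose_pos this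

theorem mv_ne {a b : Fin n} (hab : a ≠ b) (y : Fin n → ℤ) : mv a b y ≠ y := by
  intro h
  have h1 := congrFun h b
  simp [mv, Ne.symm hab] at h1

theorem Mp_diag {t : Fin n → ℕ} {s : ℕ} {a b : Fin n} (hab : a ≠ b) (x : Pt t s) :
    Mp t s a b x x = -(rt t a b (zc x) + rt t b a (zc x)) := by
  simp [Mp, Lo, mv_ne hab, mv_ne (Ne.symm hab)]
  ring

theorem Cp_diag {t : Fin n → ℕ} {s : ℕ} {a b : Fin n} (hab : a ≠ b) (x : Pt t s) :
    Cp t s a b x x = -(rt t a b (zc x) + rt t b a (zc x)) := by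
  have h1 : √(wt t x.1) ≠ 0 := (Real.sqrt_pos.2 (wt_pos' x)).ne'
  simp only [Cp, Matrix.of_apply]
  rw [Mp_diag hab]
  field_simp

theorem Mp_swap (t : Fin n → ℕ) (s : ℕ) (a b : Fin n) : Mp t s b a = Mp t s a b := by
  ext y x
  simp only [Mp, Lo, Matrix.of_apply]
  ring

theorem Cp_swap (t : Fin n → ℕ) (s : ℕ) (a b : Fin n) : Cp t s b a = Cp t s a b := by
  ext y x
  simp only [Cp, Matrix.of_apply, Mp_swap t s a b]

theorem key_swap (a b : Fin n) (x : Fin n → ℕ) : key b a x = key a b x := by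
  funext j
  simp only [key, or_comm]

/-- the pair `{a, b}` in increasing order -/
def srt (a b : Fin n) : Fin n × Fin n := if a < b then (a, b) else (b, a)

theorem srt_mem {a b : Fin n} (hab : a ≠ b) : srt a b ∈ prs n := by
  unfold srt prs
  by_cases h : a < b
  · simp [h]
  · simp only [if_neg h, Finset.mem_filter, Finset.mem_univ, true_and]
    exact lt_of_le_of_ne (not_lt.1 h) (Ne.symm hab)

theorem Cp_srt (t : Fin n → ℕ) (s : ℕ) (a b : Fin n) :
    Cp t s (srt a b).1 (srt a b).2 = Cp t s a b := by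
  unfold srt
  by_cases h : a < b
  · simp [h]
  · simp [h, Cp_swap]

theorem key_srt (a b : Fin n) (x : Fin n → ℕ) : key (srt a b).1 (srt a b).2 x = key a b x := by
  unfold srt
  by_cases h : a < b
  · simp [h]
  · simp [h, key_swap]

/-- sum over the ordered pairs -/
theorem sum_prs (f : Fin n → Fin n → ℝ) :
    ∑ p ∈ prs n, (f p.1 p.2 + f p.2 p.1) = ∑ i, ∑ j, f i j - ∑ i, f i i := by
  have h1 : ∑ i, ∑ j, f i j = ∑ p : Fin n × Fin n, f p.1 p.2 := by
    rw [Fintype.sum_prod_type]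
  have h2 : ∑ p : Fin n × Fin n, f p.1 p.2 =
      ∑ p : Fin n × Fin n, ((if p.1 < p.2 then f p.1 p.2 else 0) +
        (if p.2 < p.1 then f p.1 p.2 else 0) + (if p.1 = p.2 then f p.1 p.2 else 0)) := by
    refine Finset.sum_congr rfl fun p _ => ?_
    rcases lt_trichotomy p.1 p.2 with h | h | h
    · simp [h, not_lt_of_gt h, ne_of_lt h]
    · simp [h]
    · simp [h, not_lt_of_gt h, ne_of_gt h]
  have h3 : ∑ p : Fin n × Fin n, (if p.2 < p.1 then f p.1 p.2 else 0) =
      ∑ p : Fin n × Fin n, (if p.1 < p.2 then f p.2 p.1 else 0) := by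
    refine Fintype.sum_equiv (Equiv.prodComm _ _) _ _ fun p => ?_
    by_cases h : p.2 < p.1
    · simp [h]
    · simp [h]
  have h4 : ∑ p : Fin n × Fin n, (if p.1 = p.2 then f p.1 p.2 else 0) = ∑ i, f i i := by
    rw [Fintype.sum_prod_type]
    simp
  rw [sum_add_distrib, sum_add_distrib, h3, h4] at h2
  rw [h1, h2, sum_add_distrib, prs, sum_filter, sum_filter]
  ring

end KeysAux

open KeysAux

/-- a pair matrix preserves the other coordinates -/
theorem Cp_key (t : Fin n → ℕ) (s : ℕ) (a b : Fin n) (x y : Pt t s)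
    (h : key a b x.1 ≠ key a b y.1) : Cp t s a b x y = 0 := by
  simp [Cp, Mp_key h]

/-- distinct points share at most one pair key -/
theorem key_one (t : Fin n → ℕ) (s : ℕ) (x y : Pt t s) (hxy : x ≠ y) (p q : Fin n × Fin n)
    (hp : p ∈ prs n) (hq : q ∈ prs n) (h1 : key p.1 p.2 x.1 = key p.1 p.2 y.1)
    (h2 : key q.1 q.2 x.1 = key q.1 q.2 y.1) : p = q := by
  have hp' : p.1 < p.2 := by simpa [prs] using hp
  have hq' : q.1 < q.2 := by simpa [prs] using hq
  have aux : ∀ r : Fin n × Fin n, r.1 < r.2 → key r.1 r.2 x.1 = key r.1 r.2 y.1 →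
      x.1 r.1 ≠ y.1 r.1 ∧ x.1 r.2 ≠ y.1 r.2 ∧ ∀ j, x.1 j ≠ y.1 j → j = r.1 ∨ j = r.2 := by
    intro r hr hk
    have h3 := ExplAux.rho_eq (ne_of_lt hr) y.2 x.2 hk
    have h4 : ∀ j, x.1 j ≠ y.1 j → j = r.1 ∨ j = r.2 := by
      intro j hj
      by_contra hc
      have h5 := congrFun hk j
      simp only [key, if_neg hc] at h5
      exact hj h5
    have h6 : ¬ (x.1 r.1 = y.1 r.1 ∧ x.1 r.2 = y.1 r.2) := by
      rintro ⟨h7, h8⟩
      apply hxy
      apply Subtype.ext
      funext j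
      by_contra hj
      rcases h4 j hj with h9 | h9
      · exact hj (by rw [h9]; exact h7)
      · exact hj (by rw [h9]; exact h8)
    refine ⟨?_, ?_, h4⟩
    · intro h7
      exact h6 ⟨h7, by omega⟩
    · intro h7
      exact h6 ⟨by omega, h7⟩
  obtain ⟨a1, a2, _⟩ := aux p hp' h1
  obtain ⟨b1, b2, b3⟩ := aux q hq' h2
  have c1 := b3 p.1 a1
  have c2 := b3 p.2 a2
  have : p.1 = q.1 ∧ p.2 = q.2 := by
    rcases c1 with c1 | c1 <;> rcases c2 with c2 | c2
    · rw [c1, c2] at hp'
      exact absurd hp' (lt_irrefl _)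
    · exact ⟨c1, c2⟩
    · rw [c1, c2] at hp'
      exact absurd hp' (not_lt_of_gt hq')
    · rw [c1, c2] at hp'
      exact absurd hp' (lt_irrefl _)
  exact Prod.ext this.1 this.2

/-- key and height determine the point -/
theorem key_ht_inj (t : Fin n → ℕ) (s : ℕ) (a b : Fin n) (hab : a ≠ b) (x y : Pt t s)
    (h1 : key a b x.1 = key a b y.1) (h2 : ht t a b x.1 = ht t a b y.1) : x = y := by
  have h3 := ExplAux.rho_eq hab y.2 x.2 h1
  have hxa := (mem_Om.1 x.2).1 a
  have hxb := (mem_Om.1 x.2).1 b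
  have hya := (mem_Om.1 y.2).1 a
  have hyb := (mem_Om.1 y.2).1 b
  have h4 : x.1 a = y.1 a := by
    simp only [ht] at h2
    omega
  have h5 : x.1 b = y.1 b := by omega
  apply Subtype.ext
  funext j
  by_cases ha : j = a
  · rw [ha]; exact h4
  by_cases hb : j = b
  · rw [hb]; exact h5
  have h6 := congrFun h1 j
  simp only [key, ha, hb, or_self, if_false] at h6
  exact h6

/-- the part of the total matrix that preserves the other coordinates -/
theorem Ct_key (t : Fin n → ℕ) (s : ℕ) (a b : Fin n) (hab : a ≠ b) :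
    ∃ gam : (Fin n → ℕ) → ℝ, ∀ x y : Pt t s, key a b x.1 = key a b y.1 →
      Ct t s x y = Cp t s a b x y + if x = y then gam (key a b x.1) else 0 := by
  refine ⟨fun A => -((s : ℝ) * ((∑ j, (t j : ℝ)) - s) - ∑ j, (A j : ℝ) * ((t j : ℝ) - A j)
      - ((s : ℝ) - ∑ j, (A j : ℝ)) * ((t a : ℝ) + t b - ((s : ℝ) - ∑ j, (A j : ℝ)))), ?_⟩
  intro x y hk
  have e1 : Ct t s x y = Cp t s a b x y +
      ∑ p ∈ (prs n).erase (srt a b), Cp t s p.1 p.2 x y := by
    rw [← Cp_srt t s a b, Ct, Matrix.sum_apply, ← Finset.add_sum_erase _ _ (srt_mem hab)]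
  rw [e1]
  congr 1
  by_cases hxy : x = y
  · rw [if_pos hxy]
    subst hxy
    have e2 : ∑ p ∈ prs n, Cp t s p.1 p.2 x x =
        Cp t s a b x x + ∑ p ∈ (prs n).erase (srt a b), Cp t s p.1 p.2 x x := by
      rw [← Cp_srt t s a b, ← Finset.add_sum_erase _ _ (srt_mem hab)]
    have e3 : ∑ p ∈ prs n, Cp t s p.1 p.2 x x =
        -∑ p ∈ prs n, (rt t p.1 p.2 (zc x) + rt t p.2 p.1 (zc x)) := by
      rw [← Finset.sum_neg_distrib]
      refine Finset.sum_congr rfl fun p hp => ?_
      have hp' : p.1 < p.2 := by simpa [prs] using hp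
      exact Cp_diag (ne_of_lt hp') x
    rw [sum_prs (fun i j => rt t i j (zc x))] at e3
    rw [Cp_diag hab] at e2
    have hs : ∑ j, (x.1 j : ℝ) = s := by exact_mod_cast (mem_Om.1 x.2).2
    have e4 : ∑ i, ∑ j, rt t i j (zc x) = (s : ℝ) * ((∑ j, (t j : ℝ)) - s) := by
      simp only [rt, zc, Int.cast_natCast]
      rw [← Finset.sum_mul_sum, Finset.sum_sub_distrib, hs]
    -- the key
    have hsplit : ∀ g : Fin n → ℝ, ∑ j, g j = g a + g b +
        ∑ j, (if j = a ∨ j = b then 0 else g j) := by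
      intro g
      have h0 : ∀ j, g j = (if j = a then g j else 0) + (if j = b then g j else 0) +
          (if j = a ∨ j = b then 0 else g j) := by
        intro j
        by_cases h1 : j = a
        · simp [h1, hab]
        · by_cases h2 : j = b
          · simp [h2, Ne.symm hab]
          · simp [h1, h2]
      calc ∑ j, g j = ∑ j, ((if j = a then g j else 0) + (if j = b then g j else 0) +
          (if j = a ∨ j = b then 0 else g j)) := Finset.sum_congr rfl fun j _ => h0 j
        _ = _ := by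
          rw [Finset.sum_add_distrib, Finset.sum_add_distrib]
          simp
    have e5 : ∑ i, rt t i i (zc x) = (x.1 a : ℝ) * ((t a : ℝ) - x.1 a) +
        (x.1 b : ℝ) * ((t b : ℝ) - x.1 b) +
        ∑ j, (key a b x.1 j : ℝ) * ((t j : ℝ) - key a b x.1 j) := by
      simp only [rt, zc, Int.cast_natCast]
      rw [hsplit]
      congr 1
      refine Finset.sum_congr rfl fun j _ => ?_
      by_cases h1 : j = a ∨ j = b
      · simp [key, h1]
      · simp [key, h1]
    have e6 : ∑ j, (key a b x.1 j : ℝ) = s - x.1 a - x.1 b := by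
      rw [← hs, hsplit (fun j => (x.1 j : ℝ))]
      have : ∑ j, (key a b x.1 j : ℝ) = ∑ j, (if j = a ∨ j = b then 0 else (x.1 j : ℝ)) := by
        refine Finset.sum_congr rfl fun j _ => ?_
        by_cases h1 : j = a ∨ j = b
        · simp [key, h1]
        · simp [key, h1]
      rw [this]
      ring
    rw [e4, e5] at e3
    rw [e3] at e2
    simp only [rt, zc, Int.cast_natCast] at e2
    beta_reduce
    rw [e6]
    linarith [e2]
  · rw [if_neg hxy]
    refine Finset.sum_eq_zero fun p hp => ?_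
    obtain ⟨hp1, hp2⟩ := Finset.mem_erase.1 hp
    apply Cp_key
    intro hk'
    exact hp1 (key_one t s x y hxy p (srt a b) hp2 (srt_mem hab) hk'
      (by rw [key_srt, key_srt]; exact hk))

/-- hops of the total matrix are pair hops -/
theorem Ct_hop (t : Fin n → ℕ) (s : ℕ) (x y : Pt t s) (h : Ct t s x y ≠ 0) (hxy : x ≠ y) :
    ∃ p ∈ prs n, key p.1 p.2 x.1 = key p.1 p.2 y.1 := by
  by_contra hc
  push Not at hc
  apply h
  rw [Ct, Matrix.sum_apply]
  exact Finset.sum_eq_zero fun p hp => Cp_key t s p.1 p.2 x y (hc p hp)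

theorem lam_inj (t : Fin n → ℕ) (s : ℕ) (a b : Fin n) (x y : Pt t s)
    (h : lam (t a + t b) (ht t a b x.1) = lam (t a + t b) (ht t a b y.1)) :
    ht t a b x.1 = ht t a b y.1 := by
  have hxa := (mem_Om.1 x.2).1 a
  have hya := (mem_Om.1 y.2).1 a
  have h1 : ht t a b x.1 + ht t a b y.1 ≤ t a + t b := by
    simp only [ht]
    omega
  have h2 : ((ht t a b x.1 : ℝ)) + ht t a b y.1 ≤ ((t a + t b : ℕ) : ℝ) := by exact_mod_cast h1
  unfold lam at h
  have h3 : ((ht t a b x.1 : ℝ) - ht t a b y.1) *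
      (((t a + t b : ℕ) : ℝ) + 1 - ht t a b x.1 - ht t a b y.1) = 0 := by linarith
  rcases mul_eq_zero.1 h3 with h4 | h4
  · exact_mod_cast sub_eq_zero.1 h4
  · exfalso
    linarith

end Vale.Agent.P328.Cas
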