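import Vale.Agent.P328.Cas.Slice1
import Vale.Agent.P328.Ana.End

/-!
# P328: the slice inequality with constant `1`, and the almost-uniform sampler
-/

namespace Vale.Agent.P328.Cas

open Finset Vale.Agent.P328.Ana

/-- the block chain has a polynomial gap -/
theorem gap_zero : Gap 0 := by
  have h := gap_of_slices 0 fun n t s hn => by
    simpa using slice_one t s hn
  simpa using h

/-- **There is a polynomial-time almost-uniform sampler for contingency tables, with no
restriction on the margins.** -/
theorem almost_uniform_sampler : ∃ (P : Prog) (k : ℕ), IsAlmostUniformSampler P k :=
  almostUniformSampler_of_gap 0 gap_zero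

end Vale.Agent.P328.Cas
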