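import Vale.Agent.P328.Cas.MatBase
import Vale.Agent.P328.Cas.Comm

/-!
# P328, [C1]: commutation of the Casimir matrices
-/

namespace Vale.Agent.P328.Cas

open Finset Matrix Vale.Agent.P328.Ana

variable {n : ℕ}

/-- commutation of the symmetrised matrices -/
theorem Ct_comm (t : Fin n → ℕ) (s : ℕ) (a b : Fin n) (hab : a ≠ b) :
    Ct t s * Cp t s a b = Cp t s a b * Ct t s := by
  ext y x
  rw [Matrix.mul_apply, Matrix.mul_apply]
  set G : (Fin n → ℤ) → ℝ := fun z => if z = zc x then 1 else 0 with hG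
  have hL : ∀ z : Pt t s, Ct t s y z * Cp t s a b z x =
      √(wt t y.1) / √(wt t x.1) *
        ∑ p ∈ prs n, Mp t s p.1 p.2 y z * Lo t a b G (zc z) := by
    intro z
    have hz : √(wt t z.1) ≠ 0 := (Real.sqrt_pos.2 (wt_pos z)).ne'
    have hM : Mp t s a b z x = Lo t a b G (zc z) := rfl
    unfold Ct Cp
    rw [Matrix.sum_apply, Matrix.of_apply, hM, sum_mul, mul_sum]
    refine sum_congr rfl fun p _ => ?_
    rw [Matrix.of_apply]
    field_simp
  have hR : ∀ z : Pt t s, Cp t s a b y z * Ct t s z x =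
      √(wt t y.1) / √(wt t x.1) *
        (Mp t s a b y z * ∑ p ∈ prs n, Lo t p.1 p.2 G (zc z)) := by
    intro z
    have hz : √(wt t z.1) ≠ 0 := (Real.sqrt_pos.2 (wt_pos z)).ne'
    unfold Ct Cp
    rw [Matrix.sum_apply, Matrix.of_apply, mul_sum, mul_sum, mul_sum]
    refine sum_congr rfl fun p _ => ?_
    have hM : Mp t s p.1 p.2 z x = Lo t p.1 p.2 G (zc z) := rfl
    rw [Matrix.of_apply, hM]
    field_simp
  simp only [hL, hR, ← mul_sum]
  congr 1
  rw [sum_comm]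
  have h1 : ∑ p ∈ prs n, ∑ z : Pt t s, Mp t s p.1 p.2 y z * Lo t a b G (zc z) =
      ∑ p ∈ prs n, Lo t p.1 p.2 (Lo t a b G) (zc y) :=
    sum_congr rfl fun p hp => Mp_mulVec t s p.1 p.2 (prs_ne hp) (Lo t a b G) y
  have h2 : ∑ z : Pt t s, Mp t s a b y z * ∑ p ∈ prs n, Lo t p.1 p.2 G (zc z) =
      Lo t a b (fun w => ∑ p ∈ prs n, Lo t p.1 p.2 G w) (zc y) :=
    Mp_mulVec t s a b hab (fun w => ∑ p ∈ prs n, Lo t p.1 p.2 G w) y
  rw [h1, h2]
  exact Lo_comm t a b hab G (zc y)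

end Vale.Agent.P328.Cas
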