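import Vale.Agent.P328.Cas.Defs

/-!
# P328, [C1]: the Casimir matrices represent the lattice operators; symmetry
-/

namespace Vale.Agent.P328.Cas

open Finset Matrix Vale.Agent.P328.Ana

variable {n : ℕ}

theorem wt_pos {t : Fin n → ℕ} {s : ℕ} (x : Pt t s) : 0 < wt t x.1 := by
  unfold wt
  refine prod_pos fun j _ => ?_
  exact_mod_cast Nat.choose_pos ((mem_Om.1 x.2).1 j)

theorem zc_inj {t : Fin n → ℕ} {s : ℕ} {x y : Pt t s} (h : zc x = zc y) : x = y := by
  apply Subtype.ext
  funext j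
  have := congrFun h j
  unfold zc at this
  exact_mod_cast this

theorem mv_apply (a b j : Fin n) (y : Fin n → ℤ) :
    mv a b y j = y j - (if j = a then 1 else 0) + (if j = b then 1 else 0) := by
  unfold mv
  simp only [Pi.add_apply, Pi.sub_apply, Pi.single_apply]

theorem mv_mv (a b : Fin n) (y : Fin n → ℤ) : mv b a (mv a b y) = y := by
  unfold mv
  abel

theorem mv_eq_iff (a b : Fin n) (x y : Fin n → ℤ) : mv a b y = x ↔ mv b a x = y := by
  constructor
  · rintro rfl
    exact mv_mv a b y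
  · rintro rfl
    exact mv_mv b a x

/-- A move with a nonzero rate stays in the class. -/
theorem mv_mem {t : Fin n → ℕ} {s : ℕ} {a b : Fin n} (hab : a ≠ b) (y : Pt t s)
    (h : rt t a b (zc y) ≠ 0) : ∃ x : Pt t s, zc x = mv a b (zc y) := by
  have hy := mem_Om.1 y.2
  have ha : 1 ≤ y.1 a := by
    rcases Nat.eq_zero_or_pos (y.1 a) with h0 | h0
    · exfalso
      apply h
      unfold rt zc
      rw [h0]
      simp
    · exact h0
  have hb : y.1 b < t b := by
    rcases (hy.1 b).lt_or_eq with h0 | h0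
    · exact h0
    · exfalso
      apply h
      unfold rt zc
      rw [h0]
      simp
  have hcast : ∀ j, (((mv a b (zc y) j).toNat : ℕ) : ℤ) = mv a b (zc y) j := by
    intro j
    rw [Int.toNat_of_nonneg]
    rw [mv_apply]
    unfold zc
    by_cases hja : j = a
    · subst hja
      rw [if_pos rfl, if_neg hab]
      omega
    · rw [if_neg hja]
      split_ifs <;> omega
  refine ⟨⟨fun j => (mv a b (zc y) j).toNat, mem_Om.2 ⟨fun j => ?_, ?_⟩⟩, ?_⟩
  · refine Int.toNat_le.2 ?_
    have h2 := hy.1 j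
    rw [mv_apply]
    unfold zc
    by_cases hjb : j = b
    · subst hjb
      rw [if_neg (Ne.symm hab), if_pos rfl]
      omega
    · rw [if_neg hjb]
      split_ifs <;> omega
  · have h1 : ((∑ j, (mv a b (zc y) j).toNat : ℕ) : ℤ) = (s : ℤ) := by
      push_cast
      calc ∑ j, (((mv a b (zc y) j).toNat : ℕ) : ℤ) = ∑ j, mv a b (zc y) j :=
            sum_congr rfl fun j _ => hcast j
        _ = ∑ j, (y.1 j : ℤ) := by
            simp only [mv_apply, sum_add_distrib, sum_sub_distrib, sum_ite_eq', mem_univ, if_true]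
            unfold zc
            ring
        _ = (s : ℤ) := by exact_mod_cast hy.2
    exact_mod_cast h1
  · funext j
    exact hcast j

/-- Evaluation against indicators. -/
theorem sum_ind {t : Fin n → ℕ} {s : ℕ} (G : (Fin n → ℤ) → ℝ) (x : Pt t s) :
    ∑ z : Pt t s, (if zc x = zc z then (1 : ℝ) else 0) * G (zc z) = G (zc x) := by
  rw [sum_eq_single x]
  · rw [if_pos rfl, one_mul]
  · intro z _ hz
    rw [if_neg (fun h => hz (zc_inj h).symm), zero_mul]
  · intro h
    exact absurd (mem_univ x) h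

theorem sum_ind_mv {t : Fin n → ℕ} {s : ℕ} {a b : Fin n} (hab : a ≠ b)
    (G : (Fin n → ℤ) → ℝ) (y : Pt t s) :
    rt t a b (zc y) * ∑ z : Pt t s, (if mv a b (zc y) = zc z then (1 : ℝ) else 0) * G (zc z) =
      rt t a b (zc y) * G (mv a b (zc y)) := by
  by_cases h : rt t a b (zc y) = 0
  · rw [h, zero_mul, zero_mul]
  · obtain ⟨x, hx⟩ := mv_mem hab y h
    rw [← hx, sum_ind]

/-- the matrix represents the operator -/
theorem Mp_mulVec (t : Fin n → ℕ) (s : ℕ) (a b : Fin n) (hab : a ≠ b)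
    (G : (Fin n → ℤ) → ℝ) (y : Pt t s) :
    ∑ x, Mp t s a b y x * G (zc x) = Lo t a b G (zc y) := by
  have h1 : ∀ x : Pt t s, Mp t s a b y x * G (zc x) =
      rt t a b (zc y) * ((if mv a b (zc y) = zc x then (1 : ℝ) else 0) * G (zc x)) +
      rt t b a (zc y) * ((if mv b a (zc y) = zc x then (1 : ℝ) else 0) * G (zc x)) -
      (rt t a b (zc y) + rt t b a (zc y)) *
        ((if zc y = zc x then (1 : ℝ) else 0) * G (zc x)) := by
    intro x
    simp only [Mp, Lo, Matrix.of_apply]
    ring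
  simp only [h1]
  rw [sum_sub_distrib, sum_add_distrib, ← mul_sum, ← mul_sum, ← mul_sum, sum_ind_mv hab,
    sum_ind_mv hab.symm, sum_ind]
  unfold Lo
  ring

/-- Detailed balance for one move. -/
theorem wt_rt {t : Fin n → ℕ} {s : ℕ} {a b : Fin n} (hab : a ≠ b) (x y : Pt t s)
    (h : mv a b (zc y) = zc x) :
    wt t y.1 * rt t a b (zc y) = wt t x.1 * rt t b a (zc x) := by
  have hj : ∀ j, (x.1 j : ℤ) = (y.1 j : ℤ) - (if j = a then 1 else 0) +
      (if j = b then 1 else 0) := by
    intro j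
    have := congrFun h j
    rw [mv_apply] at this
    exact this.symm
  have hja : y.1 a = x.1 a + 1 := by
    have := hj a
    rw [if_pos rfl, if_neg hab] at this
    omega
  have hjb : x.1 b = y.1 b + 1 := by
    have := hj b
    rw [if_neg hab.symm, if_pos rfl] at this
    omega
  have hjo : ∀ j, j ≠ a → j ≠ b → x.1 j = y.1 j := by
    intro j h1 h2
    have := hj j
    rw [if_neg h1, if_neg h2] at this
    omega
  have hbm : b ∈ univ.erase a := mem_erase.2 ⟨hab.symm, mem_univ b⟩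
  have hsplit : ∀ f : Fin n → ℝ, ∏ j, f j = f a * (f b * ∏ j ∈ (univ.erase a).erase b, f j) := by
    intro f
    rw [← mul_prod_erase univ f (mem_univ a), ← mul_prod_erase (univ.erase a) f hbm]
  have hrest : ∏ j ∈ (univ.erase a).erase b, ((t j).choose (x.1 j) : ℝ) =
      ∏ j ∈ (univ.erase a).erase b, ((t j).choose (y.1 j) : ℝ) := by
    refine prod_congr rfl fun j hjm => ?_
    rw [mem_erase, mem_erase] at hjm
    rw [hjo j hjm.2.1 hjm.1]
  have hxa : x.1 a ≤ t a := (mem_Om.1 x.2).1 a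
  have hyb : y.1 b ≤ t b := (mem_Om.1 y.2).1 b
  have e1 : ((t a).choose (y.1 a) : ℝ) * (y.1 a : ℝ) =
      ((t a).choose (x.1 a) : ℝ) * ((t a : ℝ) - x.1 a) := by
    have := Nat.choose_succ_right_eq (t a) (x.1 a)
    rw [← hja] at this
    rw [← Nat.cast_sub hxa]
    exact_mod_cast this
  have e2 : ((t b).choose (x.1 b) : ℝ) * (x.1 b : ℝ) =
      ((t b).choose (y.1 b) : ℝ) * ((t b : ℝ) - y.1 b) := by
    have := Nat.choose_succ_right_eq (t b) (y.1 b)
    rw [← hjb] at this
    rw [← Nat.cast_sub hyb]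
    exact_mod_cast this
  unfold wt rt zc
  rw [hsplit, hsplit, hrest]
  push_cast
  set R := ∏ j ∈ (univ.erase a).erase b, ((t j).choose (y.1 j) : ℝ)
  calc ((t a).choose (y.1 a) : ℝ) * (((t b).choose (y.1 b) : ℝ) * R) *
        ((y.1 a : ℝ) * ((t b : ℝ) - y.1 b))
      = (((t a).choose (y.1 a) : ℝ) * (y.1 a : ℝ)) *
          (((t b).choose (y.1 b) : ℝ) * ((t b : ℝ) - y.1 b)) * R := by ring
    _ = (((t a).choose (x.1 a) : ℝ) * ((t a : ℝ) - x.1 a)) *
          (((t b).choose (x.1 b) : ℝ) * (x.1 b : ℝ)) * R := by rw [e1, e2]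
    _ = _ := by ring

/-- Detailed balance. -/
theorem wt_Mp {t : Fin n → ℕ} {s : ℕ} {a b : Fin n} (hab : a ≠ b) (x y : Pt t s) :
    wt t y.1 * Mp t s a b y x = wt t x.1 * Mp t s a b x y := by
  by_cases hxy : x = y
  · rw [hxy]
  have h1 : zc x ≠ zc y := fun h => hxy (zc_inj h)
  have hM : ∀ x y : Pt t s, zc x ≠ zc y → Mp t s a b y x =
      rt t a b (zc y) * (if mv a b (zc y) = zc x then (1 : ℝ) else 0) +
      rt t b a (zc y) * (if mv b a (zc y) = zc x then (1 : ℝ) else 0) := by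
    intro x y h
    simp only [Mp, Lo, Matrix.of_apply]
    rw [if_neg (Ne.symm h)]
    ring
  rw [hM x y h1, hM y x h1.symm]
  have key1 : wt t y.1 * (rt t a b (zc y) * (if mv a b (zc y) = zc x then (1 : ℝ) else 0)) =
      wt t x.1 * (rt t b a (zc x) * (if mv b a (zc x) = zc y then (1 : ℝ) else 0)) := by
    by_cases h : mv a b (zc y) = zc x
    · have h' := (mv_eq_iff a b (zc x) (zc y)).1 h
      rw [if_pos h, if_pos h', mul_one, mul_one]
      exact wt_rt hab x y h
    · have h' : ¬ mv b a (zc x) = zc y := fun h' => h ((mv_eq_iff a b (zc x) (zc y)).2 h')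
      rw [if_neg h, if_neg h', mul_zero, mul_zero, mul_zero, mul_zero]
  have key2 : wt t y.1 * (rt t b a (zc y) * (if mv b a (zc y) = zc x then (1 : ℝ) else 0)) =
      wt t x.1 * (rt t a b (zc x) * (if mv a b (zc x) = zc y then (1 : ℝ) else 0)) := by
    by_cases h : mv b a (zc y) = zc x
    · have h' := (mv_eq_iff b a (zc x) (zc y)).1 h
      rw [if_pos h, if_pos h', mul_one, mul_one]
      exact wt_rt hab.symm x y h
    · have h' : ¬ mv a b (zc x) = zc y := fun h' => h ((mv_eq_iff b a (zc x) (zc y)).2 h')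
      rw [if_neg h, if_neg h', mul_zero, mul_zero, mul_zero, mul_zero]
  rw [mul_add, mul_add, key1, key2]
  ring

theorem Cp_symm (t : Fin n → ℕ) (s : ℕ) (a b : Fin n) (hab : a ≠ b) : (Cp t s a b).IsSymm := by
  ext x y
  rw [Matrix.transpose_apply]
  unfold Cp
  rw [Matrix.of_apply, Matrix.of_apply]
  have hx := wt_pos x
  have hy := wt_pos y
  have hb := wt_Mp hab x y
  have hsx : 0 < √(wt t x.1) := Real.sqrt_pos.2 hx
  have hsy : 0 < √(wt t y.1) := Real.sqrt_pos.2 hy
  rw [div_eq_div_iff hsx.ne' hsy.ne']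
  calc √(wt t y.1) * Mp t s a b y x * √(wt t y.1)
      = (√(wt t y.1) * √(wt t y.1)) * Mp t s a b y x := by ring
    _ = wt t y.1 * Mp t s a b y x := by rw [Real.mul_self_sqrt hy.le]
    _ = wt t x.1 * Mp t s a b x y := hb
    _ = (√(wt t x.1) * √(wt t x.1)) * Mp t s a b x y := by rw [Real.mul_self_sqrt hx.le]
    _ = _ := by ring

theorem prs_ne {p : Fin n × Fin n} (hp : p ∈ prs n) : p.1 ≠ p.2 := by
  unfold prs at hp
  exact (mem_filter.1 hp).2.ne

theorem Ct_symm (t : Fin n → ℕ) (s : ℕ) : (Ct t s).IsSymm := by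
  ext x y
  rw [Matrix.transpose_apply]
  unfold Ct
  rw [Matrix.sum_apply, Matrix.sum_apply]
  refine sum_congr rfl fun p hp => ?_
  exact (Cp_symm t s p.1 p.2 (prs_ne hp)).apply x y

end Vale.Agent.P328.Cas
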