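import Vale.Agent.P328.Cas.Defs
import Vale.Agent.P328.Ana.Av
import Mathlib.Analysis.Matrix.Spectrum

namespace Vale.Agent.P328.Cas

open Finset Matrix Vale.Agent.P328.Ana

variable {n : ℕ}

/-! ## [A] (Abs.lean) the abstract theorem -/

theorem abs_main {Ω ι β : Type*} [Fintype Ω] [DecidableEq Ω] [Fintype ι] [DecidableEq β]
    (C : Matrix Ω Ω ℝ) (hC : C.IsSymm) (key : ι → Ω → β) (ht : ι → Ω → ℕ)
    (O : ι → Matrix Ω Ω ℝ) (lam : ι → ℕ → ℝ) (gam : ι → β → ℝ)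
    (hinj : ∀ e x y, key e x = key e y → ht e x = ht e y → x = y)
    (hO1 : ∀ e, (O e)ᵀ * O e = 1)
    (hO2 : ∀ e x y, key e x ≠ key e y → O e x y = 0)
    (hC1 : ∀ e y z, ht e y ≠ ht e z → ((O e)ᵀ * C * O e) y z = 0)
    (hC2 : ∀ e y, ((O e)ᵀ * C * O e) y y = lam e (ht e y) + gam e (key e y))
    (hone : ∀ x y, x ≠ y → ∀ e e', key e x = key e y → key e' x = key e' y → e = e')
    (hhop : ∀ x y, x ≠ y → C x y ≠ 0 → ∃ e, key e x = key e y)
    (hconn : ∀ f : Ω → ℝ, (∀ x y, C x y ≠ 0 → f x = f y) → ∀ x y, f x = f y)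
    (F : Ω → ℝ) (hF : ∑ x, F x = 0) :
    ∃ y : ι → Ω → ℝ,
      (∀ e a, ∑ z with key e z = a, y e z = ∑ x with key e x = a, F x) ∧
      (∀ e k, ∑ z with ht e z = k, y e z = 0) ∧
      ∑ e, ∑ z, y e z ^ 2 ≤ ((Fintype.card ι : ℝ) - 1) * ∑ x, F x ^ 2 := sorry

/-! ## [A2] (YForm.lean) the y-form of one pair gives the pair term of the slice inequality -/

theorem pair_term {Ω β : Type*} [DecidableEq β] (S : Finset Ω) (key : Ω → β) (F h y : Ω → ℝ)
    (h1 : ∀ a, ∑ z ∈ S with key z = a, y z = ∑ x ∈ S with key x = a, F x)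
    (h2 : ∑ z ∈ S, h z * y z = 0) :
    ∑ x ∈ S, F x ^ 2 - ∑ x ∈ S, y x ^ 2 ≤
      ∑ x ∈ S, ((F x - av S key F x) ^ 2 - 2 * (F x * av S key h x)
        + (h x - av S key h x) ^ 2) := sorry

/-! ## [A3] (Basis.lean) from commuting symmetric matrices to the matrices `O` -/

theorem basis_main {Ω β : Type*} [Fintype Ω] [DecidableEq Ω] [DecidableEq β]
    (C D : Matrix Ω Ω ℝ) (hD : D.IsSymm) (hCD : C * D = D * C)
    (key : Ω → β) (ht : Ω → ℕ) (lam : ℕ → ℝ) (gam : β → ℝ)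
    (hinj : ∀ x y, key x = key y → ht x = ht y → x = y)
    (hlam : ∀ x y : Ω, lam (ht x) = lam (ht y) → ht x = ht y)
    (hkey : ∀ x y, key x ≠ key y → D x y = 0)
    (hCd : ∀ x y, key x = key y → C x y = D x y + if x = y then gam (key x) else 0)
    (hev : ∀ z, ∃ v : Ω → ℝ, (∃ x, v x ≠ 0) ∧ (∀ x, key x ≠ key z → v x = 0) ∧
      ∀ x, ∑ y, D x y * v y = lam (ht z) * v x) :
    ∃ O : Matrix Ω Ω ℝ, Oᵀ * O = 1 ∧ (∀ x y, key x ≠ key y → O x y = 0) ∧
      (∀ y z, ht y ≠ ht z → (Oᵀ * C * O) y z = 0) ∧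
      (∀ y, (Oᵀ * C * O) y y = lam (ht y) + gam (key y)) := sorry

/-! ## [B1] (Hahn.lean) eigenfunctions of the pair operator -/

/-- The operator in the variable `x = y a`, on a fibre with `y a + y b = S`. -/
def hahn (ta tb S : ℝ) (G : ℝ → ℝ) (x : ℝ) : ℝ :=
  x * (tb - (S - x)) * (G (x - 1) - G x) + (S - x) * (ta - x) * (G (x + 1) - G x)

theorem hahn_eigen (ta tb S k : ℕ) (hk : 2 * k ≤ ta + tb) :
    ∃ P : Polynomial ℝ, P.Monic ∧ P.natDegree = k ∧
      ∀ x : ℝ, hahn ta tb S (fun z => P.eval z) x = lam (ta + tb) k * P.eval x := sorry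

/-! ## [B1'] (Eigen.lean) the eigenvector for each point of the class -/

theorem eigen_exists (t : Fin n → ℕ) (s : ℕ) (a b : Fin n) (hab : a ≠ b) (z : Pt t s) :
    ∃ v : Pt t s → ℝ, (∃ x, v x ≠ 0) ∧
      (∀ x : Pt t s, key a b x.1 ≠ key a b z.1 → v x = 0) ∧
      ∀ x, ∑ y, Cp t s a b x y * v y = lam (t a + t b) (ht t a b z.1) * v x := sorry

/-! ## [B2] (Comm.lean) commutation on the lattice -/

theorem Lo_comm (t : Fin n → ℕ) (a b : Fin n) (hab : a ≠ b) (G : (Fin n → ℤ) → ℝ)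
    (y : Fin n → ℤ) :
    ∑ p ∈ prs n, Lo t p.1 p.2 (Lo t a b G) y =
      Lo t a b (fun z => ∑ p ∈ prs n, Lo t p.1 p.2 G z) y := sorry

/-! ## [C] (Mat.lean) the matrices on the class -/

theorem wt_pos {t : Fin n → ℕ} {s : ℕ} (x : Pt t s) : 0 < wt t x.1 := sorry

/-- the matrix represents the operator -/
theorem Mp_mulVec (t : Fin n → ℕ) (s : ℕ) (a b : Fin n) (hab : a ≠ b)
    (G : (Fin n → ℤ) → ℝ) (y : Pt t s) :
    ∑ x, Mp t s a b y x * G (zc x) = Lo t a b G (zc y) := sorry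

/-- commutation of the symmetrised matrices -/
theorem Ct_comm (t : Fin n → ℕ) (s : ℕ) (a b : Fin n) (hab : a ≠ b) :
    Ct t s * Cp t s a b = Cp t s a b * Ct t s := sorry

theorem Cp_symm (t : Fin n → ℕ) (s : ℕ) (a b : Fin n) (hab : a ≠ b) : (Cp t s a b).IsSymm := sorry

theorem Ct_symm (t : Fin n → ℕ) (s : ℕ) : (Ct t s).IsSymm := sorry

/-- a pair matrix preserves the other coordinates -/
theorem Cp_key (t : Fin n → ℕ) (s : ℕ) (a b : Fin n) (x y : Pt t s)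
    (h : key a b x.1 ≠ key a b y.1) : Cp t s a b x y = 0 := sorry

/-- distinct points share at most one pair key -/
theorem key_one (t : Fin n → ℕ) (s : ℕ) (x y : Pt t s) (hxy : x ≠ y) (p q : Fin n × Fin n)
    (hp : p ∈ prs n) (hq : q ∈ prs n) (h1 : key p.1 p.2 x.1 = key p.1 p.2 y.1)
    (h2 : key q.1 q.2 x.1 = key q.1 q.2 y.1) : p = q := sorry

/-- key and height determine the point -/
theorem key_ht_inj (t : Fin n → ℕ) (s : ℕ) (a b : Fin n) (hab : a ≠ b) (x y : Pt t s)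
    (h1 : key a b x.1 = key a b y.1) (h2 : ht t a b x.1 = ht t a b y.1) : x = y := sorry

/-- the part of the total matrix that preserves the other coordinates -/
theorem Ct_key (t : Fin n → ℕ) (s : ℕ) (a b : Fin n) (hab : a ≠ b) :
    ∃ gam : (Fin n → ℕ) → ℝ, ∀ x y : Pt t s, key a b x.1 = key a b y.1 →
      Ct t s x y = Cp t s a b x y + if x = y then gam (key a b x.1) else 0 := sorry

/-- hops of the total matrix are pair hops -/
theorem Ct_hop (t : Fin n → ℕ) (s : ℕ) (x y : Pt t s) (h : Ct t s x y ≠ 0) (hxy : x ≠ y) :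
    ∃ p ∈ prs n, key p.1 p.2 x.1 = key p.1 p.2 y.1 := sorry

/-- connectivity -/
theorem Ct_conn (t : Fin n → ℕ) (s : ℕ) (f : Pt t s → ℝ)
    (hf : ∀ x y, Ct t s x y ≠ 0 → f x = f y) (x y : Pt t s) : f x = f y := sorry

theorem lam_inj (t : Fin n → ℕ) (s : ℕ) (a b : Fin n) (x y : Pt t s)
    (h : lam (t a + t b) (ht t a b x.1) = lam (t a + t b) (ht t a b y.1)) :
    ht t a b x.1 = ht t a b y.1 := sorry

/-! ## [D] (Slice1.lean) the slice inequality with constant 1 -/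

theorem slice_one (t : Fin n → ℕ) (s : ℕ) (hn : 2 ≤ n) : Slice 1 t s := sorry

end Vale.Agent.P328.Cas
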