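import Vale.Agent.P328.Cas.Defs
import Vale.Agent.P328.Ana.Av

/-!
# P328, [A2]: the y-form of one pair gives the pair term of the slice inequality
-/

namespace Vale.Agent.P328.Cas

open Finset Matrix Vale.Agent.P328.Ana

theorem jensen_av {Ω β : Type*} [DecidableEq β] (S : Finset Ω) (k : Ω → β) (G : Ω → ℝ) :
    ∑ x ∈ S, av S k G x ^ 2 ≤ ∑ x ∈ S, G x ^ 2 := by
  have h := sum_meas_mul_av S k G (av S k G) (av_meas S k G)
  have h2 : ∑ x ∈ S, (G x - av S k G x) ^ 2 =
      ∑ x ∈ S, G x ^ 2 - ∑ x ∈ S, av S k G x ^ 2 := by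
    have h3 : ∀ x ∈ S, (G x - av S k G x) ^ 2 =
        G x ^ 2 - 2 * (av S k G x * G x) + av S k G x * av S k G x := fun x _ => by ring
    rw [sum_congr rfl h3, sum_add_distrib, sum_sub_distrib, ← mul_sum, h]
    have h4 : ∑ x ∈ S, av S k G x * G x = ∑ x ∈ S, av S k G x ^ 2 := by
      rw [← h]
      exact sum_congr rfl fun x _ => by ring
    rw [h4]
    ring
  have h5 : 0 ≤ ∑ x ∈ S, (G x - av S k G x) ^ 2 := sum_nonneg fun x _ => sq_nonneg _
  linarith

theorem pair_term {Ω β : Type*} [DecidableEq β] (S : Finset Ω) (key : Ω → β) (F h y : Ω → ℝ)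
    (h1 : ∀ a, ∑ z ∈ S with key z = a, y z = ∑ x ∈ S with key x = a, F x)
    (h2 : ∑ z ∈ S, h z * y z = 0) :
    ∑ x ∈ S, F x ^ 2 - ∑ x ∈ S, y x ^ 2 ≤
      ∑ x ∈ S, ((F x - av S key F x) ^ 2 - 2 * (F x * av S key h x)
        + (h x - av S key h x) ^ 2) := by
  have hFy : ∀ x, av S key y x = av S key F x := by
    intro x
    unfold av fav
    rw [h1]
  have a1 := sum_meas_mul_av S key F (av S key F) (av_meas S key F)
  have a2 := sum_meas_mul_av S key h (av S key h) (av_meas S key h)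
  have a3 := sum_meas_mul_av S key F (av S key h) (av_meas S key h)
  have e1 : ∑ x ∈ S, ((F x - av S key F x) ^ 2 - 2 * (F x * av S key h x)
        + (h x - av S key h x) ^ 2) =
      ∑ x ∈ S, F x ^ 2 + ∑ x ∈ S, h x ^ 2 - ∑ x ∈ S, (av S key y x + av S key h x) ^ 2 := by
    have e2 : ∀ x ∈ S, (F x - av S key F x) ^ 2 - 2 * (F x * av S key h x)
        + (h x - av S key h x) ^ 2 = F x ^ 2 + h x ^ 2 - (av S key y x + av S key h x) ^ 2
          + (2 * (av S key F x * av S key F x) - 2 * (av S key F x * F x))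
          + (2 * (av S key h x * av S key h x) - 2 * (av S key h x * h x))
          + (2 * (av S key h x * av S key F x) - 2 * (av S key h x * F x)) := by
      intro x _
      rw [hFy]
      ring
    rw [sum_congr rfl e2]
    simp only [sum_add_distrib, sum_sub_distrib, ← mul_sum]
    rw [a1, a2, a3]
    ring
  have e3 : ∑ x ∈ S, (av S key y x + av S key h x) ^ 2 ≤ ∑ x ∈ S, (y x + h x) ^ 2 := by
    have := jensen_av S key (fun x => y x + h x)
    simpa only [av_add] using this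
  have e4 : ∑ x ∈ S, (y x + h x) ^ 2 = ∑ x ∈ S, y x ^ 2 + ∑ x ∈ S, h x ^ 2 := by
    have : ∀ x ∈ S, (y x + h x) ^ 2 = y x ^ 2 + h x ^ 2 + 2 * (h x * y x) := fun x _ => by ring
    rw [sum_congr rfl this, sum_add_distrib, sum_add_distrib, ← mul_sum, h2]
    ring
  linarith

end Vale.Agent.P328.Cas
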