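import Vale.Agent.P328.Cas.Abs
import Vale.Agent.P328.Cas.YForm
import Vale.Agent.P328.Cas.Basis
import Vale.Agent.P328.Cas.Eigen
import Vale.Agent.P328.Cas.Mat
import Vale.Agent.P328.Cas.Keys
import Vale.Agent.P328.Cas.Conn

/-!
# P328, [D]: the slice inequality with constant `1`
-/

namespace Vale.Agent.P328.Cas

open Finset Matrix Vale.Agent.P328.Ana

variable {n : ℕ}

theorem basis_pair (t : Fin n → ℕ) (s : ℕ) (a b : Fin n) (hab : a ≠ b) :
    ∃ (O : Matrix (Pt t s) (Pt t s) ℝ) (gam : (Fin n → ℕ) → ℝ), Oᵀ * O = 1 ∧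
      (∀ x y : Pt t s, key a b x.1 ≠ key a b y.1 → O x y = 0) ∧
      (∀ y z : Pt t s, ht t a b y.1 ≠ ht t a b z.1 → (Oᵀ * Ct t s * O) y z = 0) ∧
      (∀ y : Pt t s, (Oᵀ * Ct t s * O) y y =
        lam (t a + t b) (ht t a b y.1) + gam (key a b y.1)) := by
  obtain ⟨gam, hgam⟩ := Ct_key t s a b hab
  obtain ⟨O, h1, h2, h3, h4⟩ := basis_main (Ct t s) (Cp t s a b) (Cp_symm t s a b hab)
    (Ct_comm t s a b hab) (fun x : Pt t s => key a b x.1) (fun x : Pt t s => ht t a b x.1)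
    (lam (t a + t b)) gam (fun x y h1 h2 => key_ht_inj t s a b hab x y h1 h2)
    (fun x y h => lam_inj t s a b x y h) (fun x y h => Cp_key t s a b x y h)
    (fun x y h => hgam x y h) (fun z => eigen_exists t s a b hab z)
  exact ⟨O, gam, h1, h2, h3, h4⟩

theorem prs_lt {p : Fin n × Fin n} (hp : p ∈ prs n) : p.1 ≠ p.2 := by
  have : p.1 < p.2 := by simpa [prs] using hp
  exact ne_of_lt this

theorem sum_pt (t : Fin n → ℕ) (s : ℕ) (f : (Fin n → ℕ) → ℝ) :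
    ∑ x : Pt t s, f x.1 = ∑ x ∈ Om t s, f x := Finset.sum_coe_sort (Om t s) f

theorem sum_pt_filter (t : Fin n → ℕ) (s : ℕ) (P : (Fin n → ℕ) → Prop) [DecidablePred P]
    (f : (Fin n → ℕ) → ℝ) :
    ∑ x : Pt t s with P x.1, f x.1 = ∑ x ∈ Om t s with P x, f x := by
  rw [sum_filter, sum_filter]
  exact Finset.sum_coe_sort (Om t s) (fun x => if P x then f x else 0)

theorem yform_one (t : Fin n → ℕ) (s : ℕ) (F : (Fin n → ℕ) → ℝ)
    (hF : ∑ x ∈ Om t s, F x = 0) :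
    ∃ y : Pr n → Pt t s → ℝ,
      (∀ e : Pr n, ∀ a, ∑ z : Pt t s with key e.1.1 e.1.2 z.1 = a, y e z =
        ∑ x : Pt t s with key e.1.1 e.1.2 x.1 = a, F x.1) ∧
      (∀ e : Pr n, ∀ k, ∑ z : Pt t s with ht t e.1.1 e.1.2 z.1 = k, y e z = 0) ∧
      ∑ e, ∑ z, y e z ^ 2 ≤ ((Fintype.card (Pr n) : ℝ) - 1) * ∑ x : Pt t s, F x.1 ^ 2 := by
  have hb := fun e : Pr n => basis_pair t s e.1.1 e.1.2 (prs_lt e.2)
  choose O gam h1 h2 h3 h4 using hb
  exact abs_main (Ct t s) (Ct_symm t s) (fun (e : Pr n) (x : Pt t s) => key e.1.1 e.1.2 x.1)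
    (fun (e : Pr n) (x : Pt t s) => ht t e.1.1 e.1.2 x.1) O
    (fun e => lam (t e.1.1 + t e.1.2)) gam
    (fun e x y hk hh => key_ht_inj t s e.1.1 e.1.2 (prs_lt e.2) x y hk hh)
    h1 (fun e x y h => h2 e x y h) (fun e y z h => h3 e y z h) (fun e y => h4 e y)
    (fun x y hxy e e' hk hk' => Subtype.ext (key_one t s x y hxy e.1 e'.1 e.2 e'.2 hk hk'))
    (fun x y hxy h => by
      obtain ⟨p, hp, hk⟩ := Ct_hop t s x y h hxy
      exact ⟨⟨p, hp⟩, hk⟩)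
    (fun f hf x y => Ct_conn t s f hf x y)
    (fun x => F x.1) (by rw [sum_pt t s F, hF])

theorem slice_one (t : Fin n → ℕ) (s : ℕ) (_hn : 2 ≤ n) : Slice 1 t s := by
  intro F hF h
  obtain ⟨y, h1, h2, h3⟩ := yform_one t s F hF
  -- extend `y` by zero
  set Y : Fin n × Fin n → (Fin n → ℕ) → ℝ := fun p x =>
    if hp : p ∈ prs n then (if hx : x ∈ Om t s then y ⟨p, hp⟩ ⟨x, hx⟩ else 0) else 0 with hY
  have hYy : ∀ (e : Pr n) (x : Pt t s), Y e.1 x.1 = y e x := by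
    intro e x
    simp only [hY, e.2, x.2, dif_pos]
  have k1 : ∀ p ∈ prs n, ∀ A, ∑ z ∈ Om t s with key p.1 p.2 z = A, Y p z =
      ∑ x ∈ Om t s with key p.1 p.2 x = A, F x := by
    intro p hp A
    rw [← sum_pt_filter t s (fun z => key p.1 p.2 z = A) (Y p),
      ← sum_pt_filter t s (fun z => key p.1 p.2 z = A) F]
    have := h1 ⟨p, hp⟩ A
    simp only [← hYy] at this
    exact this
  have k2 : ∀ p ∈ prs n, ∀ k, ∑ z ∈ Om t s with ht t p.1 p.2 z = k, Y p z = 0 := by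
    intro p hp k
    rw [← sum_pt_filter t s (fun z => ht t p.1 p.2 z = k) (Y p)]
    have := h2 ⟨p, hp⟩ k
    simp only [← hYy] at this
    exact this
  have k3 : ∑ p ∈ prs n, ∑ z ∈ Om t s, Y p z ^ 2 ≤ ((#(prs n) : ℝ) - 1) * ∑ x ∈ Om t s, F x ^ 2 := by
    have e1 : ∑ p ∈ prs n, ∑ z ∈ Om t s, Y p z ^ 2 = ∑ e : Pr n, ∑ z : Pt t s, y e z ^ 2 := by
      rw [← Finset.sum_coe_sort (prs n) (fun p => ∑ z ∈ Om t s, Y p z ^ 2)]
      refine Finset.sum_congr rfl fun e _ => ?_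
      rw [← sum_pt t s (fun z => Y e.1 z ^ 2)]
      exact Finset.sum_congr rfl fun z _ => by rw [hYy]
    have e2 : (Fintype.card (Pr n) : ℝ) = #(prs n) := by
      rw [Fintype.card_coe]
    rw [e1, ← e2, ← sum_pt t s (fun x => F x ^ 2)]
    exact h3
  have k4 : ∑ p ∈ prs n, (∑ x ∈ Om t s, F x ^ 2 - ∑ x ∈ Om t s, Y p x ^ 2) ≤
      ∑ p ∈ prs n, ∑ x ∈ Om t s,
      ((F x - av (Om t s) (key p.1 p.2) F x) ^ 2
        - 2 * (F x * av (Om t s) (key p.1 p.2) (fun y => h p.1 p.2 (ht t p.1 p.2 y)) x)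
        + (h p.1 p.2 (ht t p.1 p.2 x)
            - av (Om t s) (key p.1 p.2) (fun y => h p.1 p.2 (ht t p.1 p.2 y)) x) ^ 2) := by
    refine sum_le_sum fun p hp => ?_
    refine pair_term (Om t s) (key p.1 p.2) F (fun y => h p.1 p.2 (ht t p.1 p.2 y)) (Y p)
      (k1 p hp) ?_
    rw [← sum_fiberwise_of_maps_to (s := Om t s) (t := (Om t s).image (ht t p.1 p.2))
      (g := ht t p.1 p.2) (fun x hx => mem_image_of_mem _ hx)]
    refine sum_eq_zero fun j _ => ?_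
    have : ∀ x ∈ (Om t s).filter (fun x => ht t p.1 p.2 x = j),
        h p.1 p.2 (ht t p.1 p.2 x) * Y p x = h p.1 p.2 j * Y p x := by
      intro x hx
      rw [(mem_filter.1 hx).2]
    rw [sum_congr rfl this, ← mul_sum, k2 p hp, mul_zero]
  rw [sum_sub_distrib, sum_const, nsmul_eq_mul] at k4
  linarith

end Vale.Agent.P328.Cas
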